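import Vale.Agent.P067X.Bip
import Vale.Agent.P067A.SpDefs

/-!
# P067: coloured correlations of links of rank two (from `bip_gap`)
-/

namespace P067Y

open Classical Finset Vale.Agent.P067A P067X

set_option linter.unusedSectionVars false

theorem bip_gap' {A B : Type} [Fintype A] [Fintype B] (adj : A → B → Prop)
    [inst : ∀ a b, Decidable (adj a b)] (ρ ρ' μ : ℕ)
    (hρ : 0 < ρ) (hρ' : 0 < ρ')
    (hA : ∀ a, (univ.filter fun b => adj a b).card = ρ)
    (hB : ∀ b, (univ.filter fun a => adj a b).card = ρ') (r : Setoid A)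
    (h1 : ∀ a a', a ≠ a' → r a a' → ∀ b, ¬ (adj a b ∧ adj a' b))
    (h2 : ∀ a a', ¬ r a a' → (univ.filter fun b => adj a b ∧ adj a' b).card = μ)
    (F : A → ℝ) (G : B → ℝ) (hF : ∑ a, F a = 0) :
    ∑ a, ∑ b, (if adj a b then F a * G b else 0) ≤
      (1 / Real.sqrt ρ') * (Real.sqrt (∑ a, ∑ b, if adj a b then F a ^ 2 else 0) *
        Real.sqrt (∑ a, ∑ b, if adj a b then G b ^ 2 else 0)) := by
  obtain rfl : inst = fun a b => Classical.propDecidable (adj a b) := Subsingleton.elim _ _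
  exact bip_gap adj ρ ρ' μ hρ hρ' hA hB r h1 h2 F G hF

variable {V : Type} [Fintype V]

theorem typed_pair {U : Finset (Finset V)} {ty : V → ℕ} {i j : ℕ} (hij : i ≠ j)
    (hU : Typed {i, j} ty U) {t : Finset V} (ht : t ∈ U) :
    ∃ x y, ty x = i ∧ ty y = j ∧ t = {x, y} := by
  have hc : t.card = 2 := by rw [hU.card ht, card_pair hij]
  obtain ⟨x, y, hxy, rfl⟩ := card_eq_two.1 hc
  have h1 := hU.img _ ht
  rw [image_insert, image_singleton] at h1
  have hi : i ∈ ({ty x, ty y} : Finset ℕ) := by rw [h1]; simp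
  have hj : j ∈ ({ty x, ty y} : Finset ℕ) := by rw [h1]; simp
  rw [mem_insert, mem_singleton] at hi hj
  rcases hi with hi | hi
  · rcases hj with hj | hj
    · exact absurd (hi.trans hj.symm) hij
    · exact ⟨x, y, hi.symm, hj.symm, rfl⟩
  · rcases hj with hj | hj
    · exact ⟨y, x, hi.symm, hj.symm, pair_comm x y⟩
    · exact absurd (hi.trans hj.symm) hij

theorem pr_pair_left {ty : V → ℕ} {i j : ℕ} (hij : i ≠ j) {x y : V} (hx : ty x = i)
    (hy : ty y = j) : pr ty {i} ({x, y} : Finset V) = {x} := by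
  unfold pr
  ext z
  simp only [mem_filter, mem_insert, mem_singleton]
  constructor
  · rintro ⟨rfl | rfl, h⟩
    · rfl
    · exact absurd (h.symm.trans hy) hij
  · rintro rfl
    exact ⟨Or.inl rfl, hx⟩

theorem pr_pair_right {ty : V → ℕ} {i j : ℕ} (hij : i ≠ j) {x y : V} (hx : ty x = i)
    (hy : ty y = j) : pr ty {j} ({x, y} : Finset V) = {y} := by
  rw [pair_comm]
  exact pr_pair_left hij.symm hy hx

theorem Wt_pos_pair {U : Finset (Finset V)} {x y : V} (h : {x, y} ∈ U) :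
    0 < Wt U {x} ∧ 0 < Wt U {y} := by
  unfold Wt
  exact ⟨card_pos.2 ⟨_, mem_filter.2 ⟨h, by simp⟩⟩, card_pos.2 ⟨_, mem_filter.2 ⟨h, by simp⟩⟩⟩

theorem Col.symm2 {U : Finset (Finset V)} {ty : V → ℕ} {i j : ℕ} {rho : ℝ}
    (h : Col ty U i {j} rho) : Col ty U j {i} rho := by
  intro F G hF hG
  have := h G F hG hF
  rw [mul_comm (Real.sqrt _)] at this
  refine le_trans (le_of_eq ?_) this
  exact sum_congr rfl fun t _ => mul_comm _ _

/-- vertices of a type -/
abbrev VT (U : Finset (Finset V)) (ty : V → ℕ) (i : ℕ) := {x : V // 0 < Wt U {x} ∧ ty x = i}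

theorem sum_typed {U : Finset (Finset V)} {ty : V → ℕ} {i j : ℕ} (hij : i ≠ j)
    (hU : Typed {i, j} ty U) (Φ : Finset V → Finset V → ℝ) :
    ∑ t ∈ U, Φ (pr ty {i} t) (pr ty {j} t) =
      ∑ a : VT U ty i, ∑ b : VT U ty j, if {a.1, b.1} ∈ U then Φ {a.1} {b.1} else 0 := by
  rw [← sum_product', ← sum_filter]
  symm
  refine sum_bij (fun (q : VT U ty i × VT U ty j) _ => ({q.1.1, q.2.1} : Finset V)) ?_ ?_ ?_ ?_
  · intro q hq
    exact (mem_filter.1 hq).2
  · intro q _ q' _ h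
    have h1 := congrArg (pr ty {i}) h
    have h2 := congrArg (pr ty {j}) h
    rw [pr_pair_left hij q.1.2.2 q.2.2.2, pr_pair_left hij q'.1.2.2 q'.2.2.2,
      singleton_inj] at h1
    rw [pr_pair_right hij q.1.2.2 q.2.2.2, pr_pair_right hij q'.1.2.2 q'.2.2.2,
      singleton_inj] at h2
    exact Prod.ext (Subtype.ext h1) (Subtype.ext h2)
  · intro t ht
    obtain ⟨x, y, hx, hy, rfl⟩ := typed_pair hij hU ht
    have h3 := Wt_pos_pair ht
    exact ⟨(⟨x, h3.1, hx⟩, ⟨y, h3.2, hy⟩), mem_filter.2 ⟨by simp, ht⟩, rfl⟩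
  · intro q hq
    rw [pr_pair_left hij q.1.2.2 q.2.2.2, pr_pair_right hij q.1.2.2 q.2.2.2]

theorem Wt_eq_left {U : Finset (Finset V)} {ty : V → ℕ} {i j : ℕ} (hij : i ≠ j)
    (hU : Typed {i, j} ty U) (a : VT U ty i) :
    (univ.filter fun b : VT U ty j => {a.1, b.1} ∈ U).card = Wt U {a.1} := by
  unfold Wt
  refine card_bij (fun b _ => ({a.1, b.1} : Finset V)) ?_ ?_ ?_
  · intro b hb
    rw [mem_filter] at hb ⊢
    exact ⟨hb.2, by simp⟩
  · intro b _ b' _ h
    have h2 := congrArg (pr ty {j}) h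
    rw [pr_pair_right hij a.2.2 b.2.2, pr_pair_right hij a.2.2 b'.2.2, singleton_inj] at h2
    exact Subtype.ext h2
  · intro t ht
    rw [mem_filter] at ht
    obtain ⟨x, y, hx, hy, rfl⟩ := typed_pair hij hU ht.1
    have h3 := Wt_pos_pair ht.1
    have h4 : a.1 ∈ ({x, y} : Finset V) := by simpa using ht.2
    have h5 : a.1 = x := by
      rw [mem_insert, mem_singleton] at h4
      rcases h4 with h4 | h4
      · exact h4
      · exact absurd (a.2.2.symm.trans (h4 ▸ hy)) hij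
    exact ⟨⟨y, h3.2, hy⟩, mem_filter.2 ⟨mem_univ _, by rw [h5]; exact ht.1⟩, by rw [h5]⟩

theorem Wt_eq_right {U : Finset (Finset V)} {ty : V → ℕ} {i j : ℕ} (hij : i ≠ j)
    (hU : Typed {i, j} ty U) (b : VT U ty j) :
    (univ.filter fun a : VT U ty i => {a.1, b.1} ∈ U).card = Wt U {b.1} := by
  have hU' : Typed {j, i} ty U := by rwa [pair_comm]
  rw [← Wt_eq_left hij.symm hU' b]
  congr 1
  ext a
  simp only [mem_filter, mem_univ, true_and]
  rw [pair_comm]

/-- **Coloured correlation from common neighbours.** -/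
theorem col_of_bip {U : Finset (Finset V)} {ty : V → ℕ} {i j : ℕ} (hij : i ≠ j)
    (hU : Typed {i, j} ty U) (p μ : ℕ) (hp : 0 < p)
    (hreg : ∀ x x', 0 < Wt U {x} → 0 < Wt U {x'} → ty x = ty x' → Wt U {x} = Wt U {x'})
    (hlow : ∀ y, 0 < Wt U {y} → ty y = j → p ≤ Wt U {y}) (r : Setoid V)
    (h1 : ∀ x x' y, ty x = i → ty x' = i → ty y = j → x ≠ x' → r x x' → {x, y} ∈ U →
      {x', y} ∈ U → False)
    (h2 : ∀ x x', 0 < Wt U {x} → 0 < Wt U {x'} → ty x = i → ty x' = i → ¬ r x x' →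
      (univ.filter fun y => {x, y} ∈ U ∧ {x', y} ∈ U).card = μ) :
    Col ty U i {j} (1 / Real.sqrt p) := by
  intro F G hF hG
  rcases U.eq_empty_or_nonempty with rfl | ⟨t0, ht0⟩
  · simp
  obtain ⟨x0, y0, hx0, hy0, rfl⟩ := typed_pair hij hU ht0
  have hp0 := Wt_pos_pair ht0
  have hA : ∀ a : VT U ty i, (univ.filter fun b : VT U ty j => {a.1, b.1} ∈ U).card =
      Wt U {x0} := fun a => by
    rw [Wt_eq_left hij hU a]
    exact hreg _ _ a.2.1 hp0.1 (a.2.2.trans hx0.symm)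
  have hB : ∀ b : VT U ty j, (univ.filter fun a : VT U ty i => {a.1, b.1} ∈ U).card =
      Wt U {y0} := fun b => by
    rw [Wt_eq_right hij hU b]
    exact hreg _ _ b.2.1 hp0.2 (b.2.2.trans hy0.symm)
  have hF0 : ∑ a : VT U ty i, F {a.1} = 0 := by
    have h3 := sum_typed hij hU (fun s _ => F s)
    rw [hF] at h3
    have h4 : ∀ a : VT U ty i, (∑ b : VT U ty j, if {a.1, b.1} ∈ U then F {a.1} else 0) =
        Wt U {x0} * F {a.1} := fun a => by
      rw [← sum_filter, sum_const, hA a, nsmul_eq_mul]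
    rw [sum_congr rfl fun a _ => h4 a, ← mul_sum] at h3
    have h5 : (Wt U {x0} : ℝ) ≠ 0 := by
      have := hp0.1
      positivity
    exact (mul_eq_zero.1 h3.symm).resolve_left h5
  have key := bip_gap' (fun (a : VT U ty i) (b : VT U ty j) => {a.1, b.1} ∈ U) (Wt U {x0})
    (Wt U {y0}) μ hp0.1 hp0.2 hA hB (r.comap Subtype.val) (by
      rintro a a' hne hr b ⟨hab, hab'⟩
      exact h1 a.1 a'.1 b.1 a.2.2 a'.2.2 b.2.2 (fun h => hne (Subtype.ext h)) hr hab hab') (by
      intro a a' hr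
      rw [← h2 a.1 a'.1 a.2.1 a'.2.1 a.2.2 a'.2.2 hr]
      refine card_bij (fun b _ => b.1) ?_ ?_ ?_
      · intro b hb
        rw [mem_filter] at hb ⊢
        exact ⟨mem_univ _, hb.2⟩
      · intro b _ b' _ h
        exact Subtype.ext h
      · intro y hy
        rw [mem_filter] at hy
        have h3 := Wt_pos_pair hy.2.1
        have h4 : ty y = j := by
          obtain ⟨x1, y1, hx1, hy1, he⟩ := typed_pair hij hU hy.2.1
          have h5 : y ∈ ({x1, y1} : Finset V) := by rw [← he]; simp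
          have h6 : a.1 ∈ ({x1, y1} : Finset V) := by rw [← he]; simp
          rw [mem_insert, mem_singleton] at h5 h6
          rcases h5 with h5 | h5
          · exfalso
            have h7 : y1 ∈ ({a.1, y} : Finset V) := by rw [he]; simp
            rw [mem_insert, mem_singleton] at h7
            rcases h7 with h7 | h7
            · exact hij (by rw [← a.2.2, ← h7, hy1])
            · exact hij (by rw [← hx1, ← h5, ← h7, hy1])
          · rw [h5, hy1]
        exact ⟨⟨y, h3.2, h4⟩, mem_filter.2 ⟨mem_univ _, hy.2⟩, rfl⟩)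
    (fun a => F {a.1}) (fun b => G {b.1}) hF0
  rw [sum_typed hij hU (fun s s' => F s * G s'), sum_typed hij hU (fun s _ => F s ^ 2),
    sum_typed hij hU (fun _ s' => G s' ^ 2)]
  refine key.trans (mul_le_mul_of_nonneg_right ?_ (by positivity))
  refine one_div_le_one_div_of_le (Real.sqrt_pos.2 (by exact_mod_cast hp)) ?_
  exact Real.sqrt_le_sqrt (by exact_mod_cast hlow y0 hp0.2 hy0)

/-- complete bipartite links -/
theorem col_of_complete {U : Finset (Finset V)} {ty : V → ℕ} {i j : ℕ} (hij : i ≠ j)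
    (hU : Typed {i, j} ty U)
    (h : ∀ x y, 0 < Wt U {x} → 0 < Wt U {y} → ty x = i → ty y = j → {x, y} ∈ U) {rho : ℝ}
    (hrho : 0 ≤ rho) : Col ty U i {j} rho := by
  intro F G hF hG
  rw [sum_typed hij hU (fun s s' => F s * G s')]
  have h3 := sum_typed hij hU (fun s _ => F s)
  rw [hF] at h3
  have h4 : ∀ (a : VT U ty i) (b : VT U ty j), ({a.1, b.1} : Finset V) ∈ U :=
    fun a b => h _ _ a.2.1 b.2.1 a.2.2 b.2.2
  simp only [h4, if_true] at h3 ⊢
  have h5 : ∑ a : VT U ty i, ∑ b : VT U ty j, F {a.1} * G {b.1} =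
      (∑ a : VT U ty i, F {a.1}) * (∑ b : VT U ty j, G {b.1}) := by
    rw [sum_mul_sum]
  have h6 : ∑ a : VT U ty i, ∑ _b : VT U ty j, F {a.1} =
      (∑ a : VT U ty i, F {a.1}) * (Fintype.card (VT U ty j)) := by
    rw [sum_mul]
    refine sum_congr rfl fun a _ => ?_
    rw [sum_const, card_univ, nsmul_eq_mul, mul_comm]
  rw [h6] at h3
  rw [h5]
  have h7 : (∑ a : VT U ty i, F {a.1}) * (∑ b : VT U ty j, G {b.1}) = 0 := by
    rcases mul_eq_zero.1 h3.symm with h8 | h8
    · rw [h8, zero_mul]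
    · have : IsEmpty (VT U ty j) := Fintype.card_eq_zero_iff.1 (by exact_mod_cast h8)
      rw [univ_eq_empty (α := VT U ty j), sum_empty, mul_zero]
  rw [h7]
  positivity

end P067Y
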