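import Mathlib

/-!
# P067: cyclic positions of the types `0, ..., r`
-/

namespace P067Y

open Finset

/-- position of the type `b` in the cyclic order after `a` -/
def cpos (r a b : ℕ) : ℕ := if a ≤ b then b - a else b + (r + 1) - a

theorem cpos_pos {r a b : ℕ} (ha : a ≤ r) (hb : b ≤ r) (h : a ≠ b) :
    1 ≤ cpos r a b ∧ cpos r a b ≤ r := by
  unfold cpos; split_ifs <;> omega

theorem cpos_inj {r a b b' : ℕ} (ha : a ≤ r) (hb : b ≤ r) (hb' : b' ≤ r)
    (h : cpos r a b = cpos r a b') : b = b' := by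
  unfold cpos at h; split_ifs at h <;> omega

theorem cpos_exists {r a q : ℕ} (ha : a ≤ r) (hq : 1 ≤ q) (hqr : q ≤ r) :
    ∃ t, t ≤ r ∧ t ≠ a ∧ cpos r a t = q := by
  by_cases h : a + q ≤ r
  · exact ⟨a + q, h, by omega, by unfold cpos; split_ifs <;> omega⟩
  · exact ⟨a + q - (r + 1), by omega, by omega, by unfold cpos; split_ifs <;> omega⟩

/-- two missing types -/
theorem two_types {r i j : ℕ} (hr : 3 ≤ r) (hij : i < j) (hj : j ≤ r) :
    (∃ c, c ≤ r ∧ c ≠ i ∧ c ≠ j ∧ cpos r c i = 1 ∧ cpos r c j = 2) ∨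
    (∃ c, c ≤ r ∧ c ≠ i ∧ c ≠ j ∧ cpos r c i = 2 ∧ cpos r c j = 1) ∨
    ∀ c, c ≤ r → c ≠ i → c ≠ j →
      cpos r c i + 2 ≤ cpos r c j ∨ cpos r c j + 2 ≤ cpos r c i := by
  by_cases h1 : j = i + 1
  · left
    by_cases h0 : i = 0
    · exact ⟨r, le_rfl, by omega, by omega, by unfold cpos; split_ifs <;> omega,
        by unfold cpos; split_ifs <;> omega⟩
    · exact ⟨i - 1, by omega, by omega, by omega, by unfold cpos; split_ifs <;> omega,
        by unfold cpos; split_ifs <;> omega⟩
  · by_cases h2 : i = 0 ∧ j = r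
    · right; left
      exact ⟨r - 1, by omega, by omega, by omega, by unfold cpos; split_ifs <;> omega,
        by unfold cpos; split_ifs <;> omega⟩
    · right; right
      intro c hc hci hcj
      unfold cpos
      split_ifs <;> omega

/-- a type of `S` with a large gap behind it -/
theorem exists_gap {r d g : ℕ} {S : Finset ℕ} (hS : S ⊆ range (r + 1)) (hne : S.Nonempty)
    (hd : S.card ≤ d) (hg : d * (g + 1) < r + 1) :
    ∃ c ∈ S, ∀ t ∈ S, t ≠ c → g < cpos r c t := by
  have hS' : ∀ t ∈ S, t ≤ r := fun t ht => by have := mem_range.1 (hS ht); omega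
  obtain ⟨t0, ht0, hfar⟩ : ∃ t0, t0 ≤ r ∧ ∀ c ∈ S, g < cpos r c t0 := by
    by_contra hc
    push Not at hc
    have h1 : range (r + 1) ⊆ S.biUnion fun c => (range (r + 1)).filter fun t => cpos r c t ≤ g := by
      intro t ht
      obtain ⟨c, hcS, hct⟩ := hc t (by have := mem_range.1 ht; omega)
      exact mem_biUnion.2 ⟨c, hcS, mem_filter.2 ⟨ht, hct⟩⟩
    have h2 := card_le_card h1
    have h3 : (S.biUnion fun c => (range (r + 1)).filter fun t => cpos r c t ≤ g).card ≤
        S.card * (g + 1) := by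
      refine card_biUnion_le_card_mul _ _ _ fun c hcS => ?_
      rw [← card_range (g + 1)]
      refine card_le_card_of_injOn (fun t => cpos r c t) ?_ ?_
      · intro t ht
        simp only [coe_filter, Set.mem_ofPred_eq, coe_range, Set.mem_Iio] at ht ⊢
        omega
      · intro t ht t' ht' h
        simp only [coe_filter, Set.mem_ofPred_eq, mem_range] at ht ht'
        exact cpos_inj (hS' c hcS) (by omega) (by omega) h
    rw [card_range] at h2
    have h4 : S.card * (g + 1) ≤ d * (g + 1) := Nat.mul_le_mul_right _ hd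
    omega
  obtain ⟨c, hcS, hmin⟩ := exists_min_image S (fun c => cpos r c t0) hne
  refine ⟨c, hcS, fun t ht htc => ?_⟩
  have h1 := hmin t ht
  have h2 := hfar c hcS
  have h3 := hS' c hcS
  have h4 := hS' t ht
  by_contra hcon
  unfold cpos at *
  split_ifs at * <;> omega

/-- a type of `S` whose successor is missing -/
theorem exists_succ_missing {r : ℕ} {S : Finset ℕ} (hS : S ⊆ range (r + 1)) (hne : S.Nonempty)
    {t0 : ℕ} (ht0 : t0 ≤ r) (ht0S : t0 ∉ S) :
    ∃ c ∈ S, ∃ t, t ≤ r ∧ t ∉ S ∧ cpos r c t = 1 := by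
  have hS' : ∀ t ∈ S, t ≤ r := fun t ht => by have := mem_range.1 (hS ht); omega
  obtain ⟨c, hcS, hmin⟩ := exists_min_image S (fun c => cpos r c t0) hne
  have h3 := hS' c hcS
  have hct : c ≠ t0 := fun e => ht0S (e ▸ hcS)
  obtain ⟨t, ht, htc, ht1⟩ := cpos_exists (r := r) (a := c) (q := 1) h3 le_rfl (by omega)
  refine ⟨c, hcS, t, ht, fun htS => ?_, ht1⟩
  have h1 := hmin t htS
  have htt : t ≠ t0 := fun e => ht0S (e ▸ htS)
  unfold cpos at *
  split_ifs at * <;> omega

end P067Y
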