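import Vale.Agent.P067Y.LRank

/-!
# P067: the rank two intervals at the bottom of `QF J s True ⊤ ⊥`, common neighbours
-/

set_option linter.unusedSectionVars false

namespace P067Y

open Classical Module P067X

section general

variable {F E : Type*} [Field F] [AddCommGroup E] [Module F E] [FiniteDimensional F E]

/-- elements of position one below `T₁` -/
def AA (J : Submodule F E) (s : ℕ) (T₁ : Submodule F E) : Set (Submodule F E) :=
  {x | x ∈ LL J s ∧ pos J s x = 1 ∧ x < T₁}

/-- elements of position two below `T₁` -/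
def BB (J : Submodule F E) (s : ℕ) (T₁ : Submodule F E) : Set (Submodule F E) :=
  {y | y ∈ LL J s ∧ pos J s y = 2 ∧ y < T₁}

theorem lt_of_le_finrank {A B : Submodule F E} (h : A ≤ B) (h2 : finrank F A < finrank F B) :
    A < B := lt_of_le_of_ne h (fun e => by rw [e] at h2; exact lt_irrefl _ h2)

theorem ne_bot_of_finrank {A : Submodule F E} (h : 0 < finrank F A) : A ≠ ⊥ := by
  rintro rfl
  rw [finrank_bot] at h; omega

theorem exists_mem_ne_zero {A : Submodule F E} (h : 0 < finrank F A) : ∃ w ∈ A, w ≠ 0 :=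
  (Submodule.ne_bot_iff _).1 (ne_bot_of_finrank h)

theorem exists_mem_notMem {A B : Submodule F E} (h : finrank F B < finrank F A) :
    ∃ w ∈ A, w ∉ B := by
  by_contra hc
  push Not at hc
  exact absurd (Submodule.finrank_mono (show A ≤ B from hc)) (by omega)

/-- distinct subspaces of dimension one meet in zero -/
theorem inf_eq_bot_of_ne {A B : Submodule F E} (hA : finrank F A = 1) (hB : finrank F B = 1)
    (hne : A ≠ B) : A ⊓ B = ⊥ := by
  rw [← Submodule.finrank_eq_zero (R := F)]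
  by_contra h0
  have h1 : finrank F (A ⊓ B : Submodule F E) ≤ finrank F A :=
    Submodule.finrank_mono inf_le_left
  have h2 : A ⊓ B = A := Submodule.eq_of_le_of_finrank_eq inf_le_left (by omega)
  have h3 : A ⊓ B = B := Submodule.eq_of_le_of_finrank_eq inf_le_right (by omega)
  exact hne (h2.symm.trans h3)

/-- distinct subspaces of the same dimension in a subspace of dimension one more -/
theorem finrank_inf_of_ne {A B T : Submodule F E} {m : ℕ} (hA : finrank F A = m)
    (hB : finrank F B = m) (hT : finrank F T = m + 1) (hAT : A ≤ T) (hBT : B ≤ T)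
    (hne : A ≠ B) : finrank F (A ⊓ B : Submodule F E) + 1 = m := by
  have h1 := Submodule.finrank_sup_add_finrank_inf_eq A B
  have h2 : finrank F (A ⊔ B : Submodule F E) ≤ m + 1 := by
    rw [← hT]; exact Submodule.finrank_mono (sup_le hAT hBT)
  have h3 : m < finrank F (A ⊔ B : Submodule F E) := by
    by_contra h
    have h4 : finrank F A ≤ finrank F (A ⊔ B : Submodule F E) :=
      Submodule.finrank_mono le_sup_left
    have h5 : A = A ⊔ B := Submodule.eq_of_le_of_finrank_eq le_sup_left (by omega)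
    have h6 : B = A ⊔ B := Submodule.eq_of_le_of_finrank_eq le_sup_right (by omega)
    exact hne (h5.trans h6.symm)
  omega

/-- the number of points of a subspace depends only on the dimension -/
theorem points_ncard (W : Submodule F E) :
    {x : Submodule F E | x ≤ W ∧ finrank F x = 1}.ncard =
      {x : Submodule F (Fin (finrank F W) → F) | finrank F x = 1}.ncard := by
  have φ : (Fin (finrank F W) → F) ≃ₗ[F] W := by
    refine LinearEquiv.ofFinrankEq _ _ ?_
    rw [Module.finrank_fin_fun]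
  set ι : (Fin (finrank F W) → F) →ₗ[F] E := W.subtype ∘ₗ φ.toLinearMap with hι
  have hinj : Function.Injective ι := by
    rw [hι]
    exact W.injective_subtype.comp φ.injective
  have hfr : ∀ x : Submodule F (Fin (finrank F W) → F), finrank F (x.map ι) = finrank F x :=
    fun x => (LinearEquiv.finrank_eq (Submodule.equivMapOfInjective ι hinj x)).symm
  have hset : {x : Submodule F E | x ≤ W ∧ finrank F x = 1} =
      (Submodule.map ι) '' {x : Submodule F (Fin (finrank F W) → F) | finrank F x = 1} := by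
    ext x
    simp only [Set.mem_ofPred_eq, Set.mem_image]
    constructor
    · rintro ⟨h1, h2⟩
      have h3 : (x.comap ι).map ι = x := by
        apply Submodule.map_comap_eq_of_le
        intro y hy
        refine ⟨φ.symm ⟨y, h1 hy⟩, ?_⟩
        simp [hι]
      exact ⟨x.comap ι, by rw [← h2, ← hfr, h3], h3⟩
    · rintro ⟨x', h1, rfl⟩
      refine ⟨?_, by rw [hfr, h1]⟩
      rintro _ ⟨y, _, rfl⟩
      simp [hι]
  rw [hset, Set.ncard_image_of_injective _ (Submodule.map_injective_of_injective hinj)]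

/-- a hyperplane of `Y` containing `X` and a complement vector -/
theorem exists_hyperplane {X Y : Submodule F E} (h : X < Y) :
    ∃ (C : Submodule F E) (z : E), X ≤ C ∧ C ≤ Y ∧ z ∈ Y ∧ z ∉ C ∧
      finrank F C + 1 = finrank F Y := by
  obtain ⟨z, hzY, hzX⟩ := SetLike.exists_of_lt h
  obtain ⟨C, ⟨hC1, hC2, hC3⟩, hmax⟩ : ∃ C ∈ {C : Submodule F E | X ≤ C ∧ C ≤ Y ∧ z ∉ C},
      ∀ D ∈ {C : Submodule F E | X ≤ C ∧ C ≤ Y ∧ z ∉ C}, finrank F D ≤ finrank F C := by
    have hne : {C : Submodule F E | X ≤ C ∧ C ≤ Y ∧ z ∉ C}.Nonempty := ⟨X, le_rfl, h.le, hzX⟩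
    have hb : BddAbove ((fun C : Submodule F E => finrank F C) ''
        {C : Submodule F E | X ≤ C ∧ C ≤ Y ∧ z ∉ C}) := by
      refine ⟨finrank F E, ?_⟩
      rintro _ ⟨C, _, rfl⟩
      exact Submodule.finrank_le C
    obtain ⟨C, hC, he⟩ := Nat.sSup_mem (hne.image _) hb
    exact ⟨C, hC, fun D hD => by
      simp only at he
      rw [he]; exact le_csSup hb ⟨D, hD, rfl⟩⟩
  refine ⟨C, z, hC1, hC2, hzY, hC3, ?_⟩
  have h1 : C ⊔ F ∙ z = Y := by
    refine le_antisymm (sup_le hC2 ((Submodule.span_singleton_le_iff_mem _ _).2 hzY)) ?_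
    intro y hy
    by_contra hyC
    have hyC' : y ∉ C := fun h => hyC (Submodule.mem_sup_left h)
    have h2 : z ∉ C ⊔ F ∙ y := by
      intro hz
      obtain ⟨c, hc, k, hk, he⟩ := Submodule.mem_sup.1 hz
      obtain ⟨a, rfl⟩ := Submodule.mem_span_singleton.1 hk
      by_cases ha : a = 0
      · rw [ha, zero_smul, add_zero] at he
        exact hC3 (he ▸ hc)
      · apply hyC
        have h3 : y = (-a⁻¹) • c + a⁻¹ • z := by
          rw [← he, smul_add, smul_smul, inv_mul_cancel₀ ha, one_smul, neg_smul]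
          abel
        rw [h3]
        exact Submodule.add_mem_sup (Submodule.smul_mem _ _ hc)
          (Submodule.smul_mem _ _ (Submodule.mem_span_singleton_self z))
    have h3 := hmax (C ⊔ F ∙ y) ⟨hC1.trans le_sup_left,
      sup_le hC2 ((Submodule.span_singleton_le_iff_mem _ _).2 hy), h2⟩
    rw [Submodule.finrank_sup_span_singleton hyC'] at h3
    omega
  rw [← h1, Submodule.finrank_sup_span_singleton hC3]

end general

section prime

variable {p : ℕ} [Fact p.Prime] {E : Type*} [AddCommGroup E] [Module (ZMod p) E]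
  [FiniteDimensional (ZMod p) E]

theorem finite_sub : Finite (Submodule (ZMod p) E) := by
  have : Finite E := Module.finite_of_finite (ZMod p)
  infer_instance

theorem le_ncard_of_inj {S : Set (Submodule (ZMod p) E)} (e : ZMod p → Submodule (ZMod p) E)
    (he : Function.Injective e) (h : ∀ c, e c ∈ S) : p ≤ S.ncard := by
  have := finite_sub (p := p) (E := E)
  calc p = Nat.card (ZMod p) := (Nat.card_zmod p).symm
    _ = (Set.range e).ncard := (Set.ncard_range_of_injective he).symm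
    _ ≤ S.ncard := Set.ncard_le_ncard (by rintro _ ⟨c, rfl⟩; exact h c)

/-- the statement for a pair of sets -/
def RankTwo (A B : Set (Submodule (ZMod p) E)) : Prop :=
  (∃ μ : ℕ, (∀ x ∈ A, ∀ x' ∈ A, x ≠ x' → {y ∈ B | x < y ∧ x' < y}.ncard = μ) ∧
      ∀ y ∈ B, p ≤ {x ∈ A | x < y}.ncard) ∨
  ∃ (r : Setoid (Submodule (ZMod p) E)) (μ : ℕ),
    (∀ y ∈ B, ∀ y' ∈ B, y ≠ y' → r y y' → ∀ x ∈ A, ¬ (x < y ∧ x < y')) ∧
    (∀ y ∈ B, ∀ y' ∈ B, ¬ r y y' → {x ∈ A | x < y ∧ x < y'}.ncard = μ) ∧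
    ∀ x ∈ A, (∃ y ∈ B, x < y) → p ≤ {y ∈ B | x < y}.ncard

theorem rankTwo_AB {J : Submodule (ZMod p) E} {s : ℕ}
    (hn : s + finrank (ZMod p) J + 2 ≤ finrank (ZMod p) E) {T₁ : Submodule (ZMod p) E}
    (h1 : T₁ ∈ LL J s) (hp : pos J s T₁ = 3) (hs : 2 ≤ s) : RankTwo (AA J s T₁) (BB J s T₁) := by
  have hT : T₁ ⊓ J = ⊥ ∧ 3 ≤ finrank (ZMod p) T₁ := by
    by_cases h3 : 3 ≤ s
    · have := pos_le (J := J) (T := T₁) (s := s) (by omega)
      exact ⟨this.1, by omega⟩
    · have h4 := pos_gt h1 (by omega)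
      have h5 : finrank (ZMod p) (T₁ ⊓ J : Submodule (ZMod p) E) = 0 := by omega
      have h6 := finrank_second h4.1
      exact ⟨(Submodule.finrank_eq_zero (R := ZMod p)).1 h5, by omega⟩
  left
  refine ⟨1, ?_, ?_⟩
  · rintro x ⟨hx1, hx2, hx3⟩ x' ⟨hx1', hx2', hx3'⟩ hne
    have hx := pos_le (J := J) (T := x) (s := s) (by omega)
    have hx' := pos_le (J := J) (T := x') (s := s) (by omega)
    rw [hx2] at hx
    rw [hx2'] at hx'
    have hfr : finrank (ZMod p) (x ⊔ x' : Submodule (ZMod p) E) = 2 := by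
      have := Submodule.finrank_sup_add_finrank_inf_eq x x'
      rw [inf_eq_bot_of_ne hx.2 hx'.2 hne, finrank_bot] at this
      omega
    have hle : x ⊔ x' ≤ T₁ := sup_le hx3.le hx3'.le
    have hlt : x ⊔ x' < T₁ := lt_of_le_finrank hle (by omega)
    have hbot : (x ⊔ x') ⊓ J = ⊥ := le_bot_iff.1 ((inf_le_inf_right J hle).trans_eq hT.1)
    have hset : {y ∈ BB J s T₁ | x < y ∧ x' < y} = {x ⊔ x'} := by
      ext y
      simp only [Set.mem_ofPred_eq, Set.mem_singleton_iff]
      constructor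
      · rintro ⟨⟨hy1, hy2, hy3⟩, hxy, hxy'⟩
        have hy := pos_le (J := J) (T := y) (s := s) (by omega)
        exact (Submodule.eq_of_le_of_finrank_eq (sup_le hxy.le hxy'.le) (by omega)).symm
      · rintro rfl
        refine ⟨⟨mem_LL.2 ⟨Or.inl ⟨hbot, by omega⟩, ?_, ?_⟩, ?_, hlt⟩, ?_, ?_⟩
        · exact (lt_of_lt_of_le hlt le_top).ne
        · exact ne_bot_of_finrank (by omega)
        · rw [pos_of_first hbot (by omega), hfr]
        · exact lt_of_le_finrank le_sup_left (by omega)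
        · exact lt_of_le_finrank le_sup_right (by omega)
    rw [hset, Set.ncard_singleton]
  · rintro y ⟨hy1, hy2, hy3⟩
    have hy := pos_le (J := J) (T := y) (s := s) (by omega)
    rw [hy2] at hy
    obtain ⟨w, hw, hw0⟩ := exists_mem_ne_zero (A := y) (by omega)
    obtain ⟨z, hz, hzw⟩ := exists_mem_notMem (A := y) (B := ZMod p ∙ w) (by
      rw [finrank_span_singleton hw0]; omega)
    have hwC : w ∉ (⊥ : Submodule (ZMod p) E) := by simpa using hw0
    have hzC : z ∉ (⊥ : Submodule (ZMod p) E) ⊔ ZMod p ∙ w := by simpa using hzw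
    refine le_ncard_of_inj _ (line_family_inj hwC hzC) ?_
    intro c
    obtain ⟨e1, e2, e3⟩ := line_family (bot_le (a := y)) hz hw hwC hzC c
    rw [finrank_bot] at e2
    have hlt := lt_of_le_finrank e1 (by omega)
    have hbot : (⊥ ⊔ ZMod p ∙ (z + c • w)) ⊓ J = ⊥ :=
      le_bot_iff.1 ((inf_le_inf_right J e1).trans_eq hy.1)
    refine ⟨⟨mem_LL.2 ⟨Or.inl ⟨hbot, by omega⟩, ?_, ne_bot_of_finrank (by omega)⟩, ?_,
      hlt.trans hy3⟩, hlt⟩
    · exact (lt_of_lt_of_le hlt le_top).ne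
    · rw [pos_of_first hbot (by omega), e2]

theorem rankTwo_C {J : Submodule (ZMod p) E} {s : ℕ}
    (hn : s + finrank (ZMod p) J + 2 ≤ finrank (ZMod p) E) {T₁ : Submodule (ZMod p) E}
    (h1 : T₁ ∈ LL J s) (hp : pos J s T₁ = 3) (hs : s = 1) : RankTwo (AA J s T₁) (BB J s T₁) := by
  subst hs
  have hnj : 1 + finrank (ZMod p) J < finrank (ZMod p) E := by omega
  have hT := pos_gt h1 (by omega)
  have hTJ : finrank (ZMod p) (T₁ ⊓ J : Submodule (ZMod p) E) = 1 := by omega
  have hTf := finrank_second hT.1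
  -- elements of position two
  have hB : ∀ y ∈ BB J 1 T₁, y ⊔ J = ⊤ ∧ y ⊓ J = ⊥ ∧
      finrank (ZMod p) y + finrank (ZMod p) J = finrank (ZMod p) E := by
    rintro y ⟨hy1, hy2, hy3⟩
    have h2 := pos_gt hy1 (by omega)
    have h3 : finrank (ZMod p) (y ⊓ J : Submodule (ZMod p) E) = 0 := by omega
    have h4 := finrank_second h2.1
    exact ⟨h2.1, (Submodule.finrank_eq_zero (R := ZMod p)).1 h3, by omega⟩
  have hA : ∀ x ∈ AA J 1 T₁, x ⊓ J = ⊥ ∧ finrank (ZMod p) x = 1 := by
    rintro x ⟨hx1, hx2, hx3⟩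
    have := pos_le (J := J) (T := x) (s := 1) (by omega)
    exact ⟨this.1, by omega⟩
  right
  refine ⟨⊥, {x : Submodule (ZMod p) (Fin (finrank (ZMod p) E - finrank (ZMod p) J - 1) → ZMod p) |
    finrank (ZMod p) x = 1}.ncard, ?_, ?_, ?_⟩
  · intro y _ y' _ hne hr
    exact absurd hr hne
  · intro y hy y' hy' hne
    have hne : y ≠ y' := hne
    have b1 := hB y hy
    have b2 := hB y' hy'
    have hfr := finrank_inf_of_ne (A := y) (B := y') (T := T₁) rfl (by omega) (by omega)
      hy.2.2.le hy'.2.2.le hne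
    have hset : {x ∈ AA J 1 T₁ | x < y ∧ x < y'} =
        {x : Submodule (ZMod p) E | x ≤ y ⊓ y' ∧ finrank (ZMod p) x = 1} := by
      ext x
      simp only [Set.mem_ofPred_eq]
      constructor
      · rintro ⟨hx, h2, h3⟩
        exact ⟨le_inf h2.le h3.le, (hA x hx).2⟩
      · rintro ⟨h2, h3⟩
        have hbot : x ⊓ J = ⊥ := le_bot_iff.1
          ((inf_le_inf_right J (h2.trans inf_le_left)).trans_eq b1.2.1)
        have hxy : x < y := lt_of_le_finrank (h2.trans inf_le_left) (by omega)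
        have hxy' : x < y' := lt_of_le_finrank (h2.trans inf_le_right) (by omega)
        refine ⟨⟨mem_LL.2 ⟨Or.inl ⟨hbot, by omega⟩, ?_, ne_bot_of_finrank (by omega)⟩, ?_,
          hxy.trans hy.2.2⟩, hxy, hxy'⟩
        · exact (lt_of_lt_of_le hxy le_top).ne
        · rw [pos_of_first hbot (by omega), h3]
    have e : finrank (ZMod p) (y ⊓ y' : Submodule (ZMod p) E) =
        finrank (ZMod p) E - finrank (ZMod p) J - 1 := by omega
    rw [hset, points_ncard, e]
  · rintro x hx ⟨y0, hy0, hxy⟩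
    have b0 := hB y0 hy0
    have a0 := hA x hx
    obtain ⟨C, z, hC1, hC2, hz, hzC, hCf⟩ := exists_hyperplane hxy
    obtain ⟨w, hw, hw0⟩ := exists_mem_ne_zero (A := T₁ ⊓ J) (by omega)
    rw [Submodule.mem_inf] at hw
    have hwy : w ∉ y0 := by
      intro h
      have : w ∈ y0 ⊓ J := ⟨h, hw.2⟩
      rw [b0.2.1, Submodule.mem_bot] at this
      exact hw0 this
    have hwC : w ∉ C := fun h => hwy (hC2 h)
    have hzC' : z ∉ C ⊔ ZMod p ∙ w := by
      intro h
      obtain ⟨c, hc, k, hk, he⟩ := Submodule.mem_sup.1 h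
      have hky : k ∈ y0 := by
        have : k = z - c := by rw [← he]; abel
        rw [this]; exact y0.sub_mem hz (hC2 hc)
      obtain ⟨a, rfl⟩ := Submodule.mem_span_singleton.1 hk
      by_cases ha : a = 0
      · rw [ha, zero_smul, add_zero] at he
        exact hzC (he ▸ hc)
      · exact hwy ((Submodule.smul_mem_iff _ ha).1 hky)
    refine le_ncard_of_inj _ (line_family_inj hwC hzC') ?_
    intro c
    obtain ⟨e1, e2, e3⟩ := line_family (D := T₁) (hC2.trans hy0.2.2.le) (hy0.2.2.le hz) hw.1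
      hwC hzC' c
    have hbot : (C ⊔ ZMod p ∙ (z + c • w)) ⊓ J = ⊥ := by
      by_contra hne
      have h5 : (C ⊔ ZMod p ∙ (z + c • w)) ⊓ J ≤ T₁ ⊓ J := inf_le_inf_right J e1
      have h6 : 0 < finrank (ZMod p) ((C ⊔ ZMod p ∙ (z + c • w)) ⊓ J : Submodule (ZMod p) E) := by
        rw [Nat.pos_iff_ne_zero]
        exact fun h => hne ((Submodule.finrank_eq_zero (R := ZMod p)).1 h)
      have h7 := Submodule.eq_of_le_of_finrank_le h5 (by omega)
      have h8 : w ∈ (C ⊔ ZMod p ∙ (z + c • w)) ⊓ J := by rw [h7]; exact hw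
      exact e3 h8.1
    have hlt : C ⊔ ZMod p ∙ (z + c • w) < T₁ := lt_of_le_finrank e1 (by omega)
    have htop : (C ⊔ ZMod p ∙ (z + c • w)) ⊔ J = ⊤ := by
      apply Submodule.eq_top_of_finrank_eq
      have := Submodule.finrank_sup_add_finrank_inf_eq (C ⊔ ZMod p ∙ (z + c • w)) J
      rw [hbot, finrank_bot] at this
      omega
    refine ⟨⟨mem_LL.2 ⟨Or.inr htop, (lt_of_lt_of_le hlt le_top).ne,
      ne_bot_of_finrank (by omega)⟩, ?_, hlt⟩, ?_⟩
    · rw [pos_of_second hnj htop, hbot, finrank_bot]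
    · exact lt_of_le_finrank (hC1.trans le_sup_left) (by omega)

theorem rankTwo_D {J : Submodule (ZMod p) E} {s : ℕ}
    (hn : s + finrank (ZMod p) J + 2 ≤ finrank (ZMod p) E) {T₁ : Submodule (ZMod p) E}
    (h1 : T₁ ∈ LL J s) (hp : pos J s T₁ = 3) (hs : s = 0) : RankTwo (AA J s T₁) (BB J s T₁) := by
  subst hs
  have hnj : 0 + finrank (ZMod p) J < finrank (ZMod p) E := by omega
  have hT := pos_gt h1 (by omega)
  have hTJ : finrank (ZMod p) (T₁ ⊓ J : Submodule (ZMod p) E) = 2 := by omega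
  have hTf := finrank_second hT.1
  have hA : ∀ x ∈ AA J 0 T₁, x ⊔ J = ⊤ ∧ x ⊓ J = ⊥ ∧
      finrank (ZMod p) x + finrank (ZMod p) J = finrank (ZMod p) E := by
    rintro y ⟨hy1, hy2, hy3⟩
    have h2 := pos_gt hy1 (by omega)
    have h3 : finrank (ZMod p) (y ⊓ J : Submodule (ZMod p) E) = 0 := by omega
    have h4 := finrank_second h2.1
    exact ⟨h2.1, (Submodule.finrank_eq_zero (R := ZMod p)).1 h3, by omega⟩
  have hB : ∀ y ∈ BB J 0 T₁, y ⊔ J = ⊤ ∧ finrank (ZMod p) (y ⊓ J : Submodule (ZMod p) E) = 1 ∧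
      finrank (ZMod p) y + finrank (ZMod p) J = finrank (ZMod p) E + 1 := by
    rintro y ⟨hy1, hy2, hy3⟩
    have h2 := pos_gt hy1 (by omega)
    have h4 := finrank_second h2.1
    exact ⟨h2.1, by omega, by omega⟩
  have hinf : ∀ y ∈ BB J 0 T₁, ∀ y' ∈ BB J 0 T₁, y ≠ y' →
      finrank (ZMod p) (y ⊓ y' : Submodule (ZMod p) E) + finrank (ZMod p) J =
        finrank (ZMod p) E := by
    intro y hy y' hy' hne
    have b1 := hB y hy
    have b2 := hB y' hy'
    have hfr := finrank_inf_of_ne (A := y) (B := y') (T := T₁) rfl (by omega) (by omega)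
      hy.2.2.le hy'.2.2.le hne
    omega
  right
  refine ⟨Setoid.ker fun y => y ⊓ J, 1, ?_, ?_, ?_⟩
  · rintro y hy y' hy' hne hr x hx ⟨hxy, hxy'⟩
    have hr : y ⊓ J = y' ⊓ J := hr
    have h2 := hinf y hy y' hy' hne
    have h3 := hA x hx
    have h4 : x = y ⊓ y' := Submodule.eq_of_le_of_finrank_eq (le_inf hxy.le hxy'.le) (by omega)
    have h5 : y ⊓ J ≤ x ⊓ J := by
      rw [h4]
      exact le_inf (le_inf inf_le_left (hr ▸ inf_le_left)) inf_le_right
    rw [h3.2.1, le_bot_iff] at h5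
    have h6 := (hB y hy).2.1
    rw [h5, finrank_bot] at h6
    omega
  · intro y hy y' hy' hr
    have hr : ¬ y ⊓ J = y' ⊓ J := hr
    have hne : y ≠ y' := fun e => hr (by rw [e])
    have h2 := hinf y hy y' hy' hne
    have hbot : (y ⊓ y') ⊓ J = ⊥ := by
      have h3 := inf_eq_bot_of_ne (hB y hy).2.1 (hB y' hy').2.1 hr
      rw [← le_bot_iff, ← h3]
      exact le_inf (inf_le_inf_right J inf_le_left) (inf_le_inf_right J inf_le_right)
    have htop : (y ⊓ y') ⊔ J = ⊤ := by
      apply Submodule.eq_top_of_finrank_eq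
      have := Submodule.finrank_sup_add_finrank_inf_eq (y ⊓ y') J
      rw [hbot, finrank_bot] at this
      omega
    have b1 := (hB y hy).2.2
    have b2 := (hB y' hy').2.2
    have hy0 : y ⊓ y' < y := lt_of_le_finrank inf_le_left (by omega)
    have hy0' : y ⊓ y' < y' := lt_of_le_finrank inf_le_right (by omega)
    have hset : {x ∈ AA J 0 T₁ | x < y ∧ x < y'} = {y ⊓ y'} := by
      ext x
      simp only [Set.mem_ofPred_eq, Set.mem_singleton_iff]
      constructor
      · rintro ⟨hx, hxy, hxy'⟩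
        have h3 := hA x hx
        exact Submodule.eq_of_le_of_finrank_eq (le_inf hxy.le hxy'.le) (by omega)
      · rintro rfl
        refine ⟨⟨mem_LL.2 ⟨Or.inr htop, (lt_of_lt_of_le hy0 le_top).ne,
          ne_bot_of_finrank (by omega)⟩, ?_, hy0.trans hy.2.2⟩, hy0, hy0'⟩
        rw [pos_of_second hnj htop, hbot, finrank_bot]
    rw [hset, Set.ncard_singleton]
  · rintro x hx -
    have a0 := hA x hx
    obtain ⟨w, hw, hw0⟩ := exists_mem_ne_zero (A := T₁ ⊓ J) (by omega)
    obtain ⟨z, hz, hzw⟩ := exists_mem_notMem (A := T₁ ⊓ J) (B := ZMod p ∙ w) (by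
      rw [finrank_span_singleton hw0]; omega)
    rw [Submodule.mem_inf] at hw hz
    have hxJ : ∀ v ∈ x, v ∈ J → v = 0 := by
      intro v h2 h3
      have : v ∈ x ⊓ J := ⟨h2, h3⟩
      rwa [a0.2.1, Submodule.mem_bot] at this
    have hwC : w ∉ x := fun h => hw0 (hxJ w h hw.2)
    have hzC : z ∉ x ⊔ ZMod p ∙ w := by
      intro h
      obtain ⟨c, hc, k, hk, he⟩ := Submodule.mem_sup.1 h
      have hkJ : k ∈ J := (Submodule.span_singleton_le_iff_mem _ _).2 hw.2 hk
      have hcJ : c ∈ J := by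
        have : c = z - k := by rw [← he]; abel
        rw [this]; exact J.sub_mem hz.2 hkJ
      rw [hxJ c hc hcJ, zero_add] at he
      exact hzw (he ▸ hk)
    refine le_ncard_of_inj _ (line_family_inj hwC hzC) ?_
    intro c
    obtain ⟨e1, e2, e3⟩ := line_family (D := T₁) hx.2.2.le hz.1 hw.1 hwC hzC c
    have htop : (x ⊔ ZMod p ∙ (z + c • w)) ⊔ J = ⊤ :=
      top_le_iff.1 (a0.1 ▸ sup_le_sup_right le_sup_left J)
    have h4 := finrank_second htop
    have hlt : x ⊔ ZMod p ∙ (z + c • w) < T₁ := lt_of_le_finrank e1 (by omega)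
    refine ⟨⟨mem_LL.2 ⟨Or.inr htop, (lt_of_lt_of_le hlt le_top).ne,
      ne_bot_of_finrank (by omega)⟩, ?_, hlt⟩, ?_⟩
    · rw [pos_of_second hnj htop]; omega
    · exact lt_of_le_finrank le_sup_left (by omega)

/-- **Rank two intervals.** -/
theorem rankTwo {J : Submodule (ZMod p) E} {s : ℕ}
    (hn : s + finrank (ZMod p) J + 2 ≤ finrank (ZMod p) E) {T₁ : Submodule (ZMod p) E}
    (h1 : T₁ ∈ LL J s) (hp : pos J s T₁ = 3) : RankTwo (AA J s T₁) (BB J s T₁) := by
  rcases Nat.lt_or_ge s 2 with hs | hs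
  · interval_cases s
    · exact rankTwo_D hn h1 hp rfl
    · exact rankTwo_C hn h1 hp rfl
  · exact rankTwo_AB hn h1 hp hs

end prime

end P067Y
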