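import Vale.Agent.P067A.SpDefs
import Vale.Agent.P067X.Chain

/-!
# P067: a type preserving group which is transitive on the top faces
-/

set_option linter.unusedSectionVars false

namespace P067Y

open Classical Finset Vale.Agent.P067A P067X

variable {V : Type} [Fintype V] {G : Type} [Group G] [MulAction G V]

/-- the group acts on the typed complex, transitively on the top faces -/
structure Trans (G : Type) [Group G] [MulAction G V] (ty : V → ℕ) (T : Finset (Finset V)) :
    Prop where
  ty : ∀ (g : G) (x : V), ty (g • x) = ty x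
  mem : ∀ g : G, ∀ t ∈ T, t.image (fun x => g • x) ∈ T
  tr : ∀ t ∈ T, ∀ t' ∈ T, ∃ g : G, t.image (fun x => g • x) = t'

theorem image_smul_inj (g : G) : Function.Injective fun t : Finset V =>
    t.image (fun x => g • x) :=
  image_injective (MulAction.injective g)

theorem Wt_smul {ty : V → ℕ} {T : Finset (Finset V)} (h : Trans G ty T) (g : G)
    (s : Finset V) : Wt T s ≤ Wt T (s.image fun x => g • x) := by
  unfold Wt
  refine card_le_card_of_injOn (fun t => t.image fun x => g • x) ?_ (image_smul_inj g).injOn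
  intro t ht
  simp only [coe_filter, Set.mem_ofPred_eq] at ht ⊢
  exact ⟨h.mem g t ht.1, image_subset_image ht.2⟩

theorem exists_smul {I : Finset ℕ} {ty : V → ℕ} {T : Finset (Finset V)} (hT : Typed I ty T)
    (h : Trans G ty T) {s s' : Finset V} (hs : 0 < Wt T s) (hs' : 0 < Wt T s')
    (hss : s.image ty ⊆ s'.image ty) : ∃ g : G, s.image (fun x => g • x) ⊆ s' := by
  unfold Wt at hs hs'
  obtain ⟨t, ht⟩ := card_pos.1 hs
  obtain ⟨t', ht'⟩ := card_pos.1 hs'
  rw [mem_filter] at ht ht'
  obtain ⟨g, hg⟩ := h.tr t ht.1 t' ht'.1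
  refine ⟨g, ?_⟩
  intro y hy
  obtain ⟨x, hx, rfl⟩ := mem_image.1 hy
  have h1 : g • x ∈ t' := by rw [← hg]; exact mem_image_of_mem _ (ht.2 hx)
  have h2 : ty x ∈ s'.image ty := hss (mem_image_of_mem _ hx)
  obtain ⟨z, hz, hzx⟩ := mem_image.1 h2
  have h3 : g • x = z := hT.inj t' ht'.1 h1 (ht'.2 hz) (by rw [h.ty, hzx])
  rw [h3]; exact hz

theorem Wt_le_of_types {I : Finset ℕ} {ty : V → ℕ} {T : Finset (Finset V)} (hT : Typed I ty T)
    (h : Trans G ty T) {s s' : Finset V} (hs : 0 < Wt T s) (hs' : 0 < Wt T s')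
    (hss : s'.image ty ⊆ s.image ty) : Wt T s ≤ Wt T s' := by
  obtain ⟨g, hg⟩ := exists_smul hT h hs' hs hss
  have h1 := Wt_smul h g s'
  have h2 : Wt T s ≤ Wt T (s'.image fun x => g • x) := Wt_mono hg
  -- the reverse inequality for the image
  have h3 := Wt_smul h g⁻¹ (s'.image fun x => g • x)
  have e : (s'.image fun x => g • x).image (fun x => g⁻¹ • x) = s' := by
    rw [image_image]
    conv_rhs => rw [← image_id (s := s')]
    refine image_congr fun x _ => ?_
    simp
  rw [e] at h3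
  exact h2.trans h3

/-- the weight depends only on the types -/
theorem Wt_eq_of_types {I : Finset ℕ} {ty : V → ℕ} {T : Finset (Finset V)} (hT : Typed I ty T)
    (h : Trans G ty T) {s s' : Finset V} (hs : 0 < Wt T s) (hs' : 0 < Wt T s')
    (hss : s.image ty = s'.image ty) : Wt T s = Wt T s' :=
  le_antisymm (Wt_le_of_types hT h hs hs' hss.ge) (Wt_le_of_types hT h hs' hs hss.le)

/-- regularity of the links -/
theorem lk_reg {I : Finset ℕ} {ty : V → ℕ} {T : Finset (Finset V)} (hT : Typed I ty T)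
    (h : Trans G ty T) (s : Finset V) (x x' : V) (hx : 0 < Wt (lk T s) {x})
    (hx' : 0 < Wt (lk T s) {x'}) (hty : ty x = ty x') : Wt (lk T s) {x} = Wt (lk T s) {x'} := by
  rw [Wt_lk] at hx hx' ⊢
  rw [Wt_lk]
  split_ifs at hx hx' ⊢ with h1 h2
  · refine Wt_eq_of_types hT h hx hx' ?_
    rw [image_union, image_union, image_singleton, image_singleton, hty]
  all_goals omega

/-- membership in the link -/
theorem mem_lk {T : Finset (Finset V)} {s u : Finset V} :
    u ∈ lk T s ↔ Disjoint s u ∧ s ∪ u ∈ T := by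
  unfold lk
  rw [mem_image]
  constructor
  · rintro ⟨t, ht, rfl⟩
    rw [mem_filter] at ht
    exact ⟨disjoint_sdiff, by rw [union_sdiff_of_subset ht.2]; exact ht.1⟩
  · rintro ⟨h1, h2⟩
    refine ⟨s ∪ u, mem_filter.2 ⟨h2, subset_union_left⟩, ?_⟩
    rw [union_sdiff_left]
    exact sdiff_eq_self_of_disjoint h1.symm

theorem Wt_lk_pos_iff {T : Finset (Finset V)} {s u : Finset V} :
    0 < Wt (lk T s) u ↔ Disjoint s u ∧ 0 < Wt T (s ∪ u) := by
  rw [Wt_lk]
  split_ifs with h
  · exact ⟨fun h' => ⟨h.symm, h'⟩, fun h' => h'.2⟩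
  · exact ⟨fun h' => absurd h' (lt_irrefl 0), fun h' => absurd h'.1.symm h⟩

end P067Y
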