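import Vale.Agent.P067X.Iso
import Vale.Agent.P067Y.Reg
import Vale.Agent.P067Y.LRank2
import Vale.Agent.P067Y.Cyc

/-!
# P067: complexes whose vertex links are the complexes `OC (QF J s True ⊤ ⊥)` (definitions)

`LL J s = QF J s True ⊤ ⊥`; `pos J s T ∈ {1, ..., r}` is the position (rank) of `T` in the ranked poset `LL J s`,
`s = r - ty v`, `finrank J = ty v`; `cpos r a b` is the position of the type `b` in the cyclic order
`a+1, a+2, ..., r, 0, 1, ..., a-1` after `a`.
-/

namespace P067Y

open Classical Finset Module Vale.Agent.P067A P067X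

/-- the link of the vertex `v` of the complex `K` is the complex of `LL J (r - ty v)` -/
def LModel (p r n : ℕ) [Fact p.Prime] {V : Type} (K : Set (Finset V)) (ty : V → ℕ) (v : V) :
    Prop :=
  ∃ (E : Type) (_ : AddCommGroup E) (_ : Module (ZMod p) E) (_ : FiniteDimensional (ZMod p) E)
    (J : Submodule (ZMod p) E) (φ : Submodule (ZMod p) E → V),
    finrank (ZMod p) E = n ∧ finrank (ZMod p) J = ty v ∧ ty v ≤ r ∧
    CxIso (OC (LL J (r - ty v))) (Lk K {v}) φ ∧
    ∀ T ∈ LL J (r - ty v), ty (φ T) ≤ r ∧ ty (φ T) ≠ ty v ∧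
      cpos r (ty v) (ty (φ T)) = pos J (r - ty v) T

/-- the complexes of part S -/
structure GoodC (p r n : ℕ) [Fact p.Prime] {V : Type} (T : Finset (Finset V)) (ty : V → ℕ)
    (G : Type) [Group G] [MulAction G V] : Prop where
  ne : T.Nonempty
  typed : Typed (range (r + 1)) ty T
  trans : Trans G ty T
  model : ∀ v, {v} ∈ KT T → LModel p r n (KT T) ty v

/-- positions separate the elements of a chain -/
theorem chain_pos_inj {p : ℕ} [Fact p.Prime] {E : Type} [AddCommGroup E] [Module (ZMod p) E]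
    [FiniteDimensional (ZMod p) E] {J : Submodule (ZMod p) E} {s : ℕ}
    (hn : s + finrank (ZMod p) J < finrank (ZMod p) E) {c : Finset (Submodule (ZMod p) E)}
    (hc : c ∈ OC (LL J s)) {T T' : Submodule (ZMod p) E} (hT : T ∈ c) (hT' : T' ∈ c) :
    T < T' ↔ pos J s T < pos J s T' := by
  have hch : T ≤ T' ∨ T' ≤ T := by
    by_cases h : T = T'
    · exact Or.inl h.le
    · exact hc.2 hT hT' h
  exact ⟨pos_lt_pos hn (hc.1 T hT) (hc.1 T' hT'), lt_of_pos_lt hn (hc.1 T hT) (hc.1 T' hT') hch⟩

end P067Y
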