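import Vale.Agent.P067X.CxBasic
import Vale.Agent.P067Y.XModel

/-!
# P067, module XBASE: top faces of `XX`, action of `SL`, finiteness

PROOF.  `R` embeds into `Fin m → ZMod p` by the coefficients (`A.ext`, `A.co_ge`).  `KT_XT`: `XX_pure`.  `typed_XT`: `XX_ty_inj`, `XX_top_ty`.
`trans_XT`: `XX_map`, `XX_trans`, `finrank_map_gm`.
-/

namespace P067Y

open Classical Finset Module Vale.Agent.P067A P067X

variable {p m : ℕ} [Fact p.Prime] {R : Type} [CommRing R] [Algebra (ZMod p) R]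
  {ι : Type} [Fintype ι] [DecidableEq ι]

theorem finite_R (A : TR p m R) : Finite R := by
  have : Finite (Fin m → ZMod p) := inferInstance
  refine Finite.of_injective (β := Fin m → ZMod p) (fun x a => A.co a.1 x) ?_
  intro x y h
  refine A.ext x y fun a => ?_
  by_cases ha : a < m
  · exact congrFun h ⟨a, ha⟩
  · rw [A.co_ge a x (not_lt.1 ha), A.co_ge a y (not_lt.1 ha)]

theorem finite_Vt (A : TR p m R) (ι : Type) [Fintype ι] :
    Finite (Submodule (ZMod p) (ι → R)) := by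
  have := finite_R A
  exact Finite.of_injective (β := Set (ι → R)) (fun S => (S : Set (ι → R)))
    SetLike.coe_injective

theorem finite_SL (A : TR p m R) (ι : Type) [Fintype ι] [DecidableEq ι] :
    Finite (Matrix.SpecialLinearGroup ι R) := by
  have := finite_R A
  have : Finite (Matrix ι ι R) := inferInstanceAs (Finite (ι → ι → R))
  exact Finite.of_injective (β := Matrix ι ι R) (fun g => g.1) Subtype.val_injective

/-- the top faces of `XX` -/
noncomputable def XT (A : TR p m R) (ι : Type) [Fintype ι] [DecidableEq ι] (r : ℕ) :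
    Finset (Finset (Submodule (ZMod p) (ι → R))) :=
  (XX_finite (ι := ι) A r).toFinset.filter fun σ => σ.card = r + 1

theorem mem_XT (A : TR p m R) (r : ℕ) (σ : Finset (Submodule (ZMod p) (ι → R))) :
    σ ∈ XT A ι r ↔ σ ∈ A.XX ι r ∧ σ.card = r + 1 := by
  unfold XT
  rw [mem_filter, Set.Finite.mem_toFinset]

/-- the action of `SL` on the subspaces -/
@[reducible] def slAct (p : ℕ) [Fact p.Prime] (R : Type) [CommRing R] [Algebra (ZMod p) R]
    (ι : Type) [Fintype ι] [DecidableEq ι] :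
    MulAction (Matrix.SpecialLinearGroup ι R) (Submodule (ZMod p) (ι → R)) where
  smul g S := S.map (gm p g.1)
  one_smul S := map_gm_one S
  mul_smul g h S := map_gm_mul g.1 h.1 S

theorem KT_XT (A : TR p m R) (hm : 2 ≤ m) (r : ℕ) (hr : r ≤ Fintype.card ι) :
    KT (XT A ι r) = A.XX ι r := by
  ext σ
  constructor
  · rintro ⟨t, ht, hσ⟩
    exact (isCx_XX A r).2 t ((mem_XT A r t).1 ht).1 σ hσ
  · intro hσ
    obtain ⟨τ, hτ, h1, h2⟩ := XX_pure A hm r hr hσ
    exact ⟨τ, (mem_XT A r τ).2 ⟨hτ, h2⟩, h1⟩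

theorem XT_nonempty (A : TR p m R) (hm : 2 ≤ m) (r : ℕ) (hr : r ≤ Fintype.card ι) :
    (XT A ι r).Nonempty := by
  obtain ⟨τ, hτ, -, h2⟩ := XX_pure A hm r hr (isCx_XX A r).1
  exact ⟨τ, (mem_XT A r τ).2 ⟨hτ, h2⟩⟩

theorem typed_XT (A : TR p m R) (hm : 2 ≤ m) (r : ℕ) :
    Typed (range (r + 1)) ty (XT A ι r) := by
  refine ⟨?_, ?_⟩
  · intro t ht x hx y hy h
    exact XX_ty_inj A hm r ((mem_XT A r t).1 ht).1 hx hy h
  · intro t ht
    exact XX_top_ty A hm r ((mem_XT A r t).1 ht).1 ((mem_XT A r t).1 ht).2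

theorem trans_XT (A : TR p m R) (hm : 2 ≤ m) (r : ℕ) (hr : r < Fintype.card ι) :
    letI := slAct p R ι
    Trans (Matrix.SpecialLinearGroup ι R) ty (XT A ι r) := by
  letI := slAct p R ι
  refine ⟨?_, ?_, ?_⟩
  · intro g S
    show ty (S.map (gm p g.1)) = ty S
    unfold ty
    rw [finrank_map_gm]
  · intro g t ht
    rw [mem_XT] at ht ⊢
    refine ⟨(XX_map A r g t).2 ht.1, ?_⟩
    rw [card_image_of_injective _ (MulAction.injective g)]
    exact ht.2
  · intro t ht t' ht'
    rw [mem_XT] at ht ht'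
    obtain ⟨g, hg⟩ := XX_trans A hm r hr ht.1 ht.2 ht'.1 ht'.2
    exact ⟨g, hg.symm⟩

end P067Y
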