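import Vale.Agent.P067Y.XLinkM

/-!
# P067, module XCE: coboundary expansion of the links of small nonempty faces
-/

namespace P067Y

open Classical Finset Module Vale.Agent.P067A P067X

theorem good_ce (d r : ℕ) (hd : 1 ≤ d) (hr : d * (2 * d + 2) < r + 1) :
    ∃ (p₀ : ℕ) (β : ℝ), 0 < β ∧ ∀ (p n : ℕ) [Fact p.Prime], p₀ ≤ p → r + d + 2 ≤ n →
      ∀ (V : Type) [Fintype V] (T : Finset (Finset V)) (ty : V → ℕ) (G : Type) [Group G]
        [Finite G] [MulAction G V], GoodC p r n T ty G → ∀ s : Finset V, s.Nonempty →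
        ∀ k, s.card < k → k ≤ d + 1 → CE (lk T s) (k - s.card) β := by
  obtain ⟨p₀, B, hB⟩ := fill_link d
  have hr' : 2 * d + 2 < r + 1 := lt_of_le_of_lt (Nat.le_mul_of_pos_left _ (by omega)) hr
  refine ⟨p₀, 1 / (((∑ k ∈ range (d + 1), coneB B k * 2 ^ (r + 1) : ℕ) : ℝ) + 1), by positivity, ?_⟩
  intro p n _ hp hn V _ T ty G _ _ _ h s hne k hk1 hk2
  have hs1 : 1 ≤ s.card := hne.card_pos
  by_cases hs : s ∈ KT T
  · obtain ⟨hS1, hS2⟩ := card_image_ty h hs
    obtain ⟨a, haS, ha⟩ := exists_gap (r := r) (d := d) (g := 2 * d + 1) hS1 (hne.image ty)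
      (by omega) hr
    obtain ⟨v, hv, rfl⟩ := mem_image.1 haS
    obtain ⟨E, i1, i2, i3, J, φ, c, h1, h2, h3, h4, h5, h6, h7⟩ := link_model h hs hv
    have hsum : (r - ty v) + finrank (ZMod p) J = r := by omega
    have hfill : ∀ j ≤ d, Fill (Lk (KT T) s) j (coneA B j) (coneB B j) := by
      intro j hj
      rw [← h6.fill (isCx_Lk (isCx_OC _) h4)]
      refine hB p hp E J (r - ty v) (by omega) (by omega) c h4 ?_ j hj
      intro T' hT'
      refine cond_of_pos (by omega) (h4.1 T' hT') ?_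
      obtain ⟨e1, e2, e3⟩ := h7 T' (h4.1 T' hT')
      rw [← e3]
      have h8 : φ T' ∈ s := by
        have : φ T' ∈ s.erase v := by rw [← h5]; exact mem_image_of_mem _ hT'
        exact mem_of_mem_erase this
      exact ha (ty (φ T')) (mem_image_of_mem _ h8) e2
    have h9 := ce_of_fill T (range (r + 1)) ty h.typed G h.trans.ty h.trans.mem h.trans.tr B s hs
      (k - s.card) (by rw [card_range]; omega) (fun j hj => hfill j (by omega))
    refine CE_mono ?_ h9
    apply one_div_le_one_div_of_le (by positivity)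
    rw [card_range]
    have h10 : coneB B (k - s.card) * 2 ^ (r + 1) ≤
        ∑ k ∈ range (d + 1), coneB B k * 2 ^ (r + 1) :=
      single_le_sum (f := fun k => coneB B k * 2 ^ (r + 1)) (fun i _ => Nat.zero_le _)
        (mem_range.2 (by omega))
    have h11 : ((coneB B (k - s.card) * 2 ^ (r + 1) : ℕ) : ℝ) ≤
        ((∑ k ∈ range (d + 1), coneB B k * 2 ^ (r + 1) : ℕ) : ℝ) := by exact_mod_cast h10
    push_cast at h11 ⊢
    linarith
  · rw [lk_eq_empty hs]
    exact CE_empty _ _

end P067Y
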