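import Vale.Agent.P067Y.XModel
import Vale.Agent.P067Y.BipCol

/-!
# P067, module XCOL: spectra of the links of rank two

PROOF.  `two_types`.  Third case (the missing types `i, j` are not cyclically adjacent): any `v ∈ s`; there is `w ∈ s` with
`cpos` strictly between those of `i` and `j` (after `v`), so all pairs are comparable: `col_of_complete`.  First two cases: `v ∈ s` of type `c`, `T₁` = the image of
the vertex of `s` with `cpos = 3`; `{x, y} ∈ lk T s ↔ α x < α y`, `α` = inverse of `φ`; the vertices of the two types are `AA J s T₁`, `BB J s T₁`; `rankTwo`, `col_of_bip`,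
`lk_reg`.
-/

set_option linter.unusedSectionVars false

namespace P067Y

open Classical Finset Module Vale.Agent.P067A P067X

/-- the model of the link of `v`, with the inverse map -/
theorem link_data {p r n : ℕ} [Fact p.Prime] {V : Type} {K : Set (Finset V)} {ty : V → ℕ} {v : V}
    (h : LModel p r n K ty v) :
    ∃ (E : Type) (_ : AddCommGroup E) (_ : Module (ZMod p) E)
      (_ : FiniteDimensional (ZMod p) E) (J : Submodule (ZMod p) E)
      (φ : Submodule (ZMod p) E → V) (α : V → Submodule (ZMod p) E),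
      finrank (ZMod p) E = n ∧ finrank (ZMod p) J = ty v ∧ ty v ≤ r ∧
      (∀ a ∈ LL J (r - ty v), α (φ a) = a) ∧
      (∀ x, {x} ∈ Lk K {v} → φ (α x) = x ∧ α x ∈ LL J (r - ty v) ∧
        pos J (r - ty v) (α x) = cpos r (ty v) (ty x) ∧ ty x ≤ r ∧ ty x ≠ ty v) ∧
      (∀ σ : Finset V, (∀ x ∈ σ, {x} ∈ Lk K {v}) →
        (σ ∈ Lk K {v} ↔ σ.image α ∈ OC (LL J (r - ty v)))) ∧
      (∀ τ ∈ OC (LL J (r - ty v)), τ.image φ ∈ Lk K {v}) := by
  obtain ⟨E, i1, i2, i3, J, φ, h1, h2, h3, h4, h5⟩ := h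
  have hOC : IsCx (OC (LL J (r - ty v))) := isCx_OC _
  have hsing : ∀ a, {a} ∈ OC (LL J (r - ty v)) ↔ a ∈ LL J (r - ty v) := by
    intro a
    constructor
    · intro ha; exact ha.1 a (mem_singleton_self a)
    · intro ha
      refine ⟨fun x hx => by rw [mem_singleton.1 hx]; exact ha, ?_⟩
      intro x hx y hy hne
      rw [mem_coe, mem_singleton] at hx hy
      exact absurd (hx.trans hy.symm) hne
  obtain ⟨α, a1, a2, a3⟩ := h4.symm hOC
  refine ⟨E, i1, i2, i3, J, φ, α, h1, h2, h3, ?_, ?_, ?_, ?_⟩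
  · intro a ha; exact a2 a ((hsing a).2 ha)
  · intro x hx
    have e := a3 x hx
    have hL : α x ∈ LL J (r - ty v) := by
      rw [← hsing]
      have := (a1.mem {x} (fun y hy => by rw [mem_singleton.1 hy]; exact hx)).1 hx
      rwa [image_singleton] at this
    have h6 := h5 (α x) hL
    rw [e] at h6
    exact ⟨e, hL, h6.2.2.symm, h6.1, h6.2.1⟩
  · intro σ hσ
    exact a1.mem σ hσ
  · intro τ hτ
    exact (h4.mem τ fun x hx => (hsing x).2 (hτ.1 x hx)).1 hτ

theorem oc_insert {α : Type*} [PartialOrder α] {P : Set α} {c : Finset α} {x : α}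
    (hc : c ∈ OC P) (hx : x ∈ P) (h : ∀ y ∈ c, x ≤ y ∨ y ≤ x) : insert x c ∈ OC P := by
  refine ⟨?_, ?_⟩
  · intro y hy
    rcases mem_insert.1 hy with rfl | hy
    · exact hx
    · exact hc.1 y hy
  · rw [coe_insert]
    exact hc.2.insert fun y hy _ => h y hy

theorem oc_comp {α : Type*} [PartialOrder α] {P : Set α} {c : Finset α} {x y : α}
    (hc : c ∈ OC P) (hx : x ∈ c) (hy : y ∈ c) : x ≤ y ∨ y ≤ x := by
  by_cases h : x = y
  · exact Or.inl h.le
  · exact hc.2 hx hy h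

theorem card_eq_ncard {α β : Type*} {S : Finset α} {B : Set β} (f : α → β)
    (h1 : ∀ x ∈ S, f x ∈ B) (h2 : Set.InjOn f S) (h3 : ∀ b ∈ B, ∃ x ∈ S, f x = b) :
    S.card = B.ncard := by
  rw [← Set.ncard_coe_finset, ← Set.InjOn.ncard_image h2]
  congr 1
  ext b
  simp only [Set.mem_image, mem_coe]
  constructor
  · rintro ⟨x, hx, rfl⟩; exact h1 x hx
  · intro hb
    obtain ⟨x, hx, he⟩ := h3 b hb
    exact ⟨x, hx, he⟩

section

variable {p r n : ℕ} [Fact p.Prime] {V : Type} [Fintype V] {T : Finset (Finset V)}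
    {ty : V → ℕ} {G : Type} [Group G] [MulAction G V]

theorem mem_of_card {I : Finset ℕ} (hT : Typed I ty T) {σ : Finset V} (h : 0 < Wt T σ)
    (hc : σ.card = I.card) : σ ∈ T := by
  unfold Wt at h
  obtain ⟨t, ht⟩ := card_pos.1 h
  rw [mem_filter] at ht
  have := eq_of_subset_of_card_le ht.2 (by rw [hT.card ht.1, hc])
  rw [this]; exact ht.1

theorem kt_iff {σ : Finset V} : σ ∈ KT T ↔ 0 < Wt T σ := by
  unfold Wt
  rw [card_pos]
  constructor
  · rintro ⟨t, ht, h⟩
    exact ⟨t, mem_filter.2 ⟨ht, h⟩⟩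
  · rintro ⟨t, ht⟩
    rw [mem_filter] at ht
    exact ⟨t, ht.1, ht.2⟩

/-- the types of `s` are all types except the two missing ones -/
theorem types_of_s (hT : Typed (range (r + 1)) ty T) {s : Finset V} (hs : 0 < Wt T s)
    (hsc : s.card + 2 = r + 1) {i j : ℕ} (hi : i ∈ range (r + 1) \ s.image ty)
    (hj : j ∈ range (r + 1) \ s.image ty) (hij : i ≠ j) :
    range (r + 1) \ s.image ty = {i, j} ∧ ∀ t, t ≤ r → t ≠ i → t ≠ j → ∃ v ∈ s, ty v = t := by
  have h1 : (range (r + 1) \ s.image ty).card = 2 := by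
    unfold Wt at hs
    obtain ⟨t, ht⟩ := card_pos.1 hs
    rw [mem_filter] at ht
    have h2 : (s.image ty).card = s.card :=
      card_image_of_injOn ((hT.inj t ht.1).mono (by exact_mod_cast ht.2))
    have h3 : s.image ty ⊆ range (r + 1) := by
      rw [← hT.img t ht.1]; exact image_subset_image ht.2
    rw [card_sdiff_of_subset h3, h2, card_range]
    omega
  have h2 : range (r + 1) \ s.image ty = {i, j} := by
    symm
    refine eq_of_subset_of_card_le ?_ (by rw [h1, card_pair hij])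
    intro x hx
    rw [mem_insert, mem_singleton] at hx
    rcases hx with rfl | rfl
    · exact hi
    · exact hj
  refine ⟨h2, fun t ht hti htj => ?_⟩
  by_contra hc
  have : t ∈ range (r + 1) \ s.image ty := by
    rw [mem_sdiff, mem_range, mem_image]
    exact ⟨by omega, hc⟩
  rw [h2, mem_insert, mem_singleton] at this
  rcases this with h | h
  · exact hti h
  · exact htj h

/-- adjacency in the link of `s` through the model of the link of `v ∈ s` -/
theorem adj_data (h : GoodC p r n T ty G) {s : Finset V} (hs : 0 < Wt T s)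
    (hsc : s.card + 2 = r + 1) {v : V} (hv : v ∈ s) (hn : r + 2 ≤ n) :
    ∃ (E : Type) (_ : AddCommGroup E) (_ : Module (ZMod p) E)
      (_ : FiniteDimensional (ZMod p) E) (J : Submodule (ZMod p) E) (s₀ : ℕ)
      (φ : Submodule (ZMod p) E → V) (α : V → Submodule (ZMod p) E)
      (c : Finset (Submodule (ZMod p) E)),
      s₀ + finrank (ZMod p) J + 2 ≤ finrank (ZMod p) E ∧ ty v ≤ r ∧ c ∈ OC (LL J s₀) ∧
      (∀ w ∈ s, w ≠ v → α w ∈ c ∧ pos J s₀ (α w) = cpos r (ty v) (ty w)) ∧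
      (∀ a ∈ c, ∃ w ∈ s, w ≠ v ∧ a = α w) ∧
      (∀ x, 0 < Wt (lk T s) {x} → φ (α x) = x ∧ α x ∈ LL J s₀ ∧
        pos J s₀ (α x) = cpos r (ty v) (ty x) ∧ ty x ≤ r ∧ ∀ a ∈ c, α x ≤ a ∨ a ≤ α x) ∧
      (∀ x y, 0 < Wt (lk T s) {x} → 0 < Wt (lk T s) {y} → ty x ≠ ty y →
        pos J s₀ (α x) < pos J s₀ (α y) → ({x, y} ∈ lk T s ↔ α x < α y)) ∧
      (∀ a ∈ LL J s₀, (∀ b ∈ c, a < b) → 0 < Wt (lk T s) {φ a} ∧ α (φ a) = a) := by
  have hsK : s ∈ KT T := kt_iff.2 hs
  have hvK : {v} ∈ KT T := kt_iff.2 (lt_of_lt_of_le hs (Wt_mono (singleton_subset_iff.2 hv)))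
  obtain ⟨E, i1, i2, i3, J, φ, α, h1, h2, h3, h4, h5, h6, h7⟩ := link_data (h.model v hvK)
  set s₀ := r - ty v with hs₀
  have hlkiff : ∀ σ : Finset V, σ ∈ Lk (KT T) {v} ↔ v ∉ σ ∧ 0 < Wt T (insert v σ) := by
    intro σ
    show Disjoint {v} σ ∧ {v} ∪ σ ∈ KT T ↔ _
    rw [disjoint_singleton_left, kt_iff, insert_eq]
  have hvert : ∀ σ ∈ Lk (KT T) {v}, ∀ x ∈ σ, {x} ∈ Lk (KT T) {v} := by
    intro σ hσ x hx
    rw [hlkiff] at hσ ⊢
    refine ⟨?_, lt_of_lt_of_le hσ.2 (Wt_mono ?_)⟩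
    · rw [mem_singleton]; rintro rfl; exact hσ.1 hx
    · intro y hy
      rw [mem_insert, mem_singleton] at hy
      rcases hy with rfl | rfl
      · exact mem_insert_self _ _
      · exact mem_insert_of_mem hx
  have hs' : s.erase v ∈ Lk (KT T) {v} := by
    rw [hlkiff]
    exact ⟨notMem_erase v s, by rw [insert_erase hv]; exact hs⟩
  have hnj : s₀ + finrank (ZMod p) J + 2 ≤ finrank (ZMod p) E := by omega
  have hx' : ∀ x, 0 < Wt (lk T s) {x} → insert x (s.erase v) ∈ Lk (KT T) {v} ∧ x ∉ s := by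
    intro x hx
    rw [Wt_lk_pos_iff] at hx
    have hxs : x ∉ s := by simpa using hx.1
    rw [hlkiff]
    refine ⟨⟨?_, ?_⟩, hxs⟩
    · rw [mem_insert, mem_erase]
      rintro (rfl | ⟨h8, _⟩)
      · exact hxs hv
      · exact h8 rfl
    · have e : insert v (insert x (s.erase v)) = s ∪ {x} := by
        rw [Finset.insert_comm, insert_erase hv, union_comm]; rfl
      rw [e]; exact hx.2
  have hc : (s.erase v).image α ∈ OC (LL J s₀) := (h6 _ (hvert _ hs')).1 hs'
  have hxc : ∀ x, 0 < Wt (lk T s) {x} → insert (α x) ((s.erase v).image α) ∈ OC (LL J s₀) := by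
    intro x hx
    have h8 := (h6 _ (hvert _ (hx' x hx).1)).1 (hx' x hx).1
    rwa [image_insert] at h8
  have hxv : ∀ x, 0 < Wt (lk T s) {x} → {x} ∈ Lk (KT T) {v} := fun x hx =>
    hvert _ (hx' x hx).1 x (mem_insert_self _ _)
  refine ⟨E, i1, i2, i3, J, s₀, φ, α, (s.erase v).image α, hnj, h3, hc, ?_, ?_, ?_, ?_, ?_⟩
  · intro w hw hwv
    have hwe : w ∈ s.erase v := mem_erase.2 ⟨hwv, hw⟩
    exact ⟨mem_image_of_mem _ hwe, (h5 w (hvert _ hs' w hwe)).2.2.1⟩
  · intro a ha
    obtain ⟨w, hw, rfl⟩ := mem_image.1 ha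
    rw [mem_erase] at hw
    exact ⟨w, hw.2, hw.1, rfl⟩
  · intro x hx
    have h8 := h5 x (hxv x hx)
    refine ⟨h8.1, h8.2.1, h8.2.2.1, h8.2.2.2.1, fun a ha => ?_⟩
    exact oc_comp (hxc x hx) (mem_insert_self _ _) (mem_insert_of_mem ha)
  · intro x y hx hy hne hpos
    have hxy : x ≠ y := fun e => hne (by rw [e])
    have hxs := (hx' x hx).2
    have hys := (hx' y hy).2
    have hdis : Disjoint s {x, y} := by
      rw [disjoint_left]
      intro z hz hz'
      rw [mem_insert, mem_singleton] at hz'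
      rcases hz' with rfl | rfl
      · exact hxs hz
      · exact hys hz
    have hcard : (s ∪ {x, y}).card = (range (r + 1)).card := by
      rw [card_union_of_disjoint hdis, card_pair hxy, card_range, hsc]
    have e1 : {x, y} ∈ lk T s ↔ 0 < Wt T (s ∪ {x, y}) := by
      rw [mem_lk]
      constructor
      · rintro ⟨_, h8⟩
        unfold Wt
        exact card_pos.2 ⟨_, mem_filter.2 ⟨h8, Subset.refl _⟩⟩
      · intro h8
        exact ⟨hdis, mem_of_card h.typed h8 hcard⟩
    have hvx : v ≠ x := fun e => hxs (e ▸ hv)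
    have hvy : v ≠ y := fun e => hys (e ▸ hv)
    have e2 : insert x (insert y (s.erase v)) ∈ Lk (KT T) {v} ↔ 0 < Wt T (s ∪ {x, y}) := by
      rw [hlkiff]
      have e : insert v (insert x (insert y (s.erase v))) = s ∪ {x, y} := by
        ext z
        simp only [mem_insert, mem_erase, mem_union, mem_singleton]
        by_cases hz : z = v
        · subst hz; simp [hv]
        · simp only [hz, false_or, ne_eq, not_false_eq_true, true_and]
          tauto
      rw [e]
      constructor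
      · exact fun h8 => h8.2
      · intro h8
        refine ⟨?_, h8⟩
        simp only [mem_insert, mem_erase, ne_eq, not_true_eq_false, false_and, or_false]
        rintro (h9 | h9)
        · exact hvx h9
        · exact hvy h9
    have hall : ∀ z ∈ insert x (insert y (s.erase v)), {z} ∈ Lk (KT T) {v} := by
      intro z hz
      rw [mem_insert, mem_insert] at hz
      rcases hz with rfl | rfl | hz
      · exact hxv _ hx
      · exact hxv _ hy
      · exact hvert _ hs' z hz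
    rw [e1, ← e2, h6 _ hall, image_insert, image_insert]
    constructor
    · intro h8
      have h9 := oc_comp h8 (mem_insert_self _ _)
        (mem_insert_of_mem (mem_insert_self (α y) ((s.erase v).image α)))
      exact lt_of_pos_lt (by omega) (h5 x (hxv x hx)).2.1 (h5 y (hxv y hy)).2.1 h9 hpos
    · intro h8
      refine oc_insert (hxc y hy) (h5 x (hxv x hx)).2.1 ?_
      intro b hb
      rcases mem_insert.1 hb with rfl | hb
      · exact Or.inl h8.le
      · exact oc_comp (hxc x hx) (mem_insert_self _ _) (mem_insert_of_mem hb)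
  · intro a ha hac
    have h8 : insert a ((s.erase v).image α) ∈ OC (LL J s₀) :=
      oc_insert hc ha fun b hb => Or.inl (hac b hb).le
    have h9 := h7 _ h8
    rw [image_insert, image_image] at h9
    have e : (s.erase v).image (φ ∘ α) = s.erase v := by
      conv_rhs => rw [← image_id (s := s.erase v)]
      refine image_congr fun w hw => ?_
      exact (h5 w (hvert _ hs' w hw)).1
    rw [e, hlkiff] at h9
    have hφv : φ a ≠ v := fun e' => h9.1 (by rw [e']; exact mem_insert_self _ _)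
    have hφs : φ a ∉ s := by
      intro hin
      have hwe : φ a ∈ s.erase v := mem_erase.2 ⟨hφv, hin⟩
      have := mem_image_of_mem α hwe
      rw [h4 a ha] at this
      exact lt_irrefl _ (hac a this)
    refine ⟨?_, h4 a ha⟩
    rw [Wt_lk_pos_iff]
    refine ⟨by simpa using hφs, ?_⟩
    have e' : s ∪ {φ a} = insert v (insert (φ a) (s.erase v)) := by
      rw [Finset.insert_comm, insert_erase hv, union_comm]; rfl
    rw [e']; exact h9.2

/-- cyclically adjacent missing types -/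
theorem col_adj (h : GoodC p r n T ty G) (hr : 3 ≤ r) (hn : r + 2 ≤ n) {s : Finset V}
    (hs : 0 < Wt T s) (hsc : s.card + 2 = r + 1) {i j : ℕ}
    (hi : i ∈ range (r + 1) \ s.image ty) (hj : j ∈ range (r + 1) \ s.image ty) (hij : i ≠ j)
    {c : ℕ} (hc : c ≤ r) (hci : c ≠ i) (hcj : c ≠ j) (h1 : cpos r c i = 1)
    (h2 : cpos r c j = 2) : Col ty (lk T s) i {j} (1 / Real.sqrt p) := by
  obtain ⟨htypes, hex⟩ := types_of_s h.typed hs hsc hi hj hij
  have hp0 : 0 < p := (Fact.out : p.Prime).pos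
  have hir : i ≤ r := by have := mem_range.1 (mem_sdiff.1 hi).1; omega
  have hjr : j ≤ r := by have := mem_range.1 (mem_sdiff.1 hj).1; omega
  obtain ⟨v, hv, rfl⟩ := hex c hc hci hcj
  obtain ⟨t3, ht3, ht3v, ht33⟩ := cpos_exists (r := r) (a := ty v) (q := 3) hc (by norm_num) hr
  obtain ⟨w, hw, rfl⟩ := hex t3 ht3 (by rintro rfl; omega) (by rintro rfl; omega)
  have hwv : w ≠ v := fun e => ht3v (by rw [e])
  have hU : Typed {i, j} ty (lk T s) := by rw [← htypes]; exact h.typed.lk s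
  obtain ⟨E, i1, i2, i3, J, s₀, φ, α, ch, d1, d2, d3, d4, d5, d6, d7, d8⟩ :=
    adj_data h hs hsc hv hn
  have hT1 := d4 w hw hwv
  rw [ht33] at hT1
  have hT1L : α w ∈ LL J s₀ := d3.1 _ hT1.1
  have hnlt : s₀ + finrank (ZMod p) J < finrank (ZMod p) E := by omega
  -- the chain lies above `T₁`
  have hmin : ∀ a ∈ ch, α w ≤ a := by
    intro a ha
    obtain ⟨w', hw', hwv', rfl⟩ := d5 a ha
    have h3 := d4 w' hw' hwv'
    have hty : ty w' ≤ r := by
      have : ty w' ∈ range (r + 1) := by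
        unfold Wt at hs
        obtain ⟨t, ht⟩ := card_pos.1 hs
        rw [mem_filter] at ht
        rw [← h.typed.img t ht.1]; exact mem_image_of_mem _ (ht.2 hw')
      rw [mem_range] at this; omega
    have hne1 : ty w' ≠ i := by
      rintro rfl
      exact (mem_sdiff.1 hi).2 (mem_image_of_mem _ hw')
    have hne2 : ty w' ≠ j := by
      rintro rfl
      exact (mem_sdiff.1 hj).2 (mem_image_of_mem _ hw')
    have hne3 : ty w' ≠ ty v := by
      intro e
      unfold Wt at hs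
      obtain ⟨t, ht⟩ := card_pos.1 hs
      rw [mem_filter] at ht
      exact hwv' (h.typed.inj t ht.1 (ht.2 hw') (ht.2 hv) e)
    have hp1 : cpos r (ty v) (ty w') ≠ 1 := fun e => hne1 (cpos_inj hc hty hir (e.trans h1.symm))
    have hp2 : cpos r (ty v) (ty w') ≠ 2 := fun e => hne2 (cpos_inj hc hty hjr (e.trans h2.symm))
    have hp3 := (cpos_pos hc hty hne3.symm).1
    rcases oc_comp d3 hT1.1 ha with h4 | h4
    · exact h4
    · rcases eq_or_lt_of_le h4 with h5 | h5
      · exact h5.ge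
      · have := pos_lt_pos hnlt (d3.1 _ ha) hT1L h5
        omega
  have hAmem : ∀ x, 0 < Wt (lk T s) {x} → ty x = i → α x ∈ AA J s₀ (α w) := by
    intro x hx hxi
    have h3 := d6 x hx
    have h4 : pos J s₀ (α x) = 1 := by rw [h3.2.2.1, hxi, h1]
    exact ⟨h3.2.1, h4, lt_of_pos_lt hnlt h3.2.1 hT1L (h3.2.2.2.2 _ hT1.1) (by omega)⟩
  have hBmem : ∀ x, 0 < Wt (lk T s) {x} → ty x = j → α x ∈ BB J s₀ (α w) := by
    intro x hx hxi
    have h3 := d6 x hx
    have h4 : pos J s₀ (α x) = 2 := by rw [h3.2.2.1, hxi, h2]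
    exact ⟨h3.2.1, h4, lt_of_pos_lt hnlt h3.2.1 hT1L (h3.2.2.2.2 _ hT1.1) (by omega)⟩
  have hAsurj : ∀ a ∈ AA J s₀ (α w), 0 < Wt (lk T s) {φ a} ∧ ty (φ a) = i ∧ α (φ a) = a := by
    rintro a ⟨ha1, ha2, ha3⟩
    obtain ⟨h3, h4⟩ := d8 a ha1 fun b hb => lt_of_lt_of_le ha3 (hmin b hb)
    have h5 := d6 _ h3
    rw [h4, ha2] at h5
    exact ⟨h3, cpos_inj hc h5.2.2.2.1 hir (h5.2.2.1.symm.trans h1.symm), h4⟩
  have hBsurj : ∀ a ∈ BB J s₀ (α w), 0 < Wt (lk T s) {φ a} ∧ ty (φ a) = j ∧ α (φ a) = a := by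
    rintro a ⟨ha1, ha2, ha3⟩
    obtain ⟨h3, h4⟩ := d8 a ha1 fun b hb => lt_of_lt_of_le ha3 (hmin b hb)
    have h5 := d6 _ h3
    rw [h4, ha2] at h5
    exact ⟨h3, cpos_inj hc h5.2.2.2.1 hjr (h5.2.2.1.symm.trans h2.symm), h4⟩
  have hadj : ∀ x y, 0 < Wt (lk T s) {x} → 0 < Wt (lk T s) {y} → ty x = i → ty y = j →
      ({x, y} ∈ lk T s ↔ α x < α y) := by
    intro x y hx hy hxi hyj
    refine d7 x y hx hy (by rw [hxi, hyj]; exact hij) ?_
    rw [(hAmem x hx hxi).2.1, (hBmem y hy hyj).2.1]; norm_num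
  have hinj : ∀ x y, 0 < Wt (lk T s) {x} → 0 < Wt (lk T s) {y} → α x = α y → x = y := by
    intro x y hx hy he
    rw [← (d6 x hx).1, he, (d6 y hy).1]
  -- types of neighbours
  have hnb : ∀ x y, {x, y} ∈ lk T s → (ty x = i → ty y = j) ∧ (ty y = j → ty x = i) := by
    intro x y hxy
    obtain ⟨x', y', hx', hy', he⟩ := typed_pair hij hU hxy
    have hne : x' ≠ y' := by rintro rfl; exact hij (hx'.symm.trans hy')
    have m1 : x' ∈ ({x, y} : Finset V) := by rw [he]; simp
    have m2 : y' ∈ ({x, y} : Finset V) := by rw [he]; simp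
    rw [mem_insert, mem_singleton] at m1 m2
    rcases m1 with rfl | rfl <;> rcases m2 with rfl | rfl
    · exact absurd rfl hne
    · exact ⟨fun _ => hy', fun _ => hx'⟩
    · exact ⟨fun e => absurd (e.symm.trans hy') hij, fun e => absurd (hx'.symm.trans e) hij⟩
    · exact absurd rfl hne
  have hreg := lk_reg h.typed h.trans s
  rcases rankTwo (p := p) d1 hT1L hT1.2 with ⟨μ, r1, r2⟩ | ⟨rr, μ, r1, r2, r3⟩
  · refine col_of_bip hij hU p μ hp0 hreg ?_ ⊥ ?_ ?_
    · intro y hy hyj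
      rw [← Wt_eq_right hij hU ⟨y, hy, hyj⟩]
      refine (r2 _ (hBmem y hy hyj)).trans (le_of_eq (Eq.symm ?_))
      refine card_eq_ncard (fun x : VT (lk T s) ty i => α x.1) ?_ ?_ ?_
      · intro x hx
        rw [mem_filter] at hx
        exact ⟨hAmem x.1 x.2.1 x.2.2, (hadj x.1 y x.2.1 hy x.2.2 hyj).1 hx.2⟩
      · intro x _ x' _ he
        exact Subtype.ext (hinj _ _ x.2.1 x'.2.1 he)
      · rintro a ⟨ha, hlt⟩
        obtain ⟨q1, q2, q3⟩ := hAsurj a ha
        refine ⟨⟨φ a, q1, q2⟩, mem_filter.2 ⟨mem_univ _, ?_⟩, q3⟩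
        rw [hadj _ y q1 hy q2 hyj, q3]; exact hlt
    · intro x x' y _ _ _ hne he
      exact absurd he hne
    · intro x x' hx hx' hxi hxi' hne
      rw [← r1 _ (hAmem x hx hxi) _ (hAmem x' hx' hxi') (fun e => hne (hinj x x' hx hx' e))]
      refine card_eq_ncard α ?_ ?_ ?_
      · intro y hy
        rw [mem_filter] at hy
        have hyj := (hnb x y hy.2.1).1 hxi
        have hy0 := (Wt_pos_pair hy.2.1).2
        exact ⟨hBmem y hy0 hyj, (hadj x y hx hy0 hxi hyj).1 hy.2.1,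
          (hadj x' y hx' hy0 hxi' hyj).1 hy.2.2⟩
      · intro y hy y' hy' he
        rw [mem_coe, mem_filter] at hy hy'
        exact hinj _ _ (Wt_pos_pair hy.2.1).2 (Wt_pos_pair hy'.2.1).2 he
      · rintro b ⟨hb, hlt, hlt'⟩
        obtain ⟨q1, q2, q3⟩ := hBsurj b hb
        refine ⟨φ b, mem_filter.2 ⟨mem_univ _, ?_, ?_⟩, q3⟩
        · rw [hadj x _ hx q1 hxi q2, q3]; exact hlt
        · rw [hadj x' _ hx' q1 hxi' q2, q3]; exact hlt'
  · refine Col.symm2 (col_of_bip hij.symm (by rwa [pair_comm]) p μ hp0 hreg ?_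
      (rr.comap α) ?_ ?_)
    · intro x hx hxi
      rw [← Wt_eq_left hij hU ⟨x, hx, hxi⟩]
      have hex' : ∃ b ∈ BB J s₀ (α w), α x < b := by
        have h3 : 0 < (univ.filter fun b : VT (lk T s) ty j => {x, b.1} ∈ lk T s).card := by
          rw [Wt_eq_left hij hU ⟨x, hx, hxi⟩]; exact hx
        obtain ⟨b, hb⟩ := card_pos.1 h3
        rw [mem_filter] at hb
        exact ⟨α b.1, hBmem b.1 b.2.1 b.2.2, (hadj x b.1 hx b.2.1 hxi b.2.2).1 hb.2⟩
      refine (r3 _ (hAmem x hx hxi) hex').trans (le_of_eq (Eq.symm ?_))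
      refine card_eq_ncard (fun y : VT (lk T s) ty j => α y.1) ?_ ?_ ?_
      · intro y hy
        rw [mem_filter] at hy
        exact ⟨hBmem y.1 y.2.1 y.2.2, (hadj x y.1 hx y.2.1 hxi y.2.2).1 hy.2⟩
      · intro y _ y' _ he
        exact Subtype.ext (hinj _ _ y.2.1 y'.2.1 he)
      · rintro b ⟨hb, hlt⟩
        obtain ⟨q1, q2, q3⟩ := hBsurj b hb
        refine ⟨⟨φ b, q1, q2⟩, mem_filter.2 ⟨mem_univ _, ?_⟩, q3⟩
        rw [hadj x _ hx q1 hxi q2, q3]; exact hlt
    · intro y y' x hyj hyj' hxi hne hr' hyx hyx'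
      have hy0 := (Wt_pos_pair hyx).1
      have hx0 := (Wt_pos_pair hyx).2
      have hy0' := (Wt_pos_pair hyx').1
      rw [pair_comm] at hyx hyx'
      exact r1 _ (hBmem y hy0 hyj) _ (hBmem y' hy0' hyj') (fun e => hne (hinj _ _ hy0 hy0' e)) hr'
        _ (hAmem x hx0 hxi) ⟨(hadj x y hx0 hy0 hxi hyj).1 hyx,
          (hadj x y' hx0 hy0' hxi hyj').1 hyx'⟩
    · intro y y' hy hy' hyj hyj' hne
      rw [← r2 _ (hBmem y hy hyj) _ (hBmem y' hy' hyj') hne]
      refine card_eq_ncard α ?_ ?_ ?_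
      · intro x hx
        rw [mem_filter, pair_comm y x, pair_comm y' x] at hx
        have hxi := (hnb x y hx.2.1).2 hyj
        have hx0 := (Wt_pos_pair hx.2.1).1
        exact ⟨hAmem x hx0 hxi, (hadj x y hx0 hy hxi hyj).1 hx.2.1,
          (hadj x y' hx0 hy' hxi hyj').1 hx.2.2⟩
      · intro x hx x' hx' he
        rw [mem_coe, mem_filter] at hx hx'
        exact hinj _ _ (Wt_pos_pair hx.2.1).2 (Wt_pos_pair hx'.2.1).2 he
      · rintro a ⟨ha, hlt, hlt'⟩
        obtain ⟨q1, q2, q3⟩ := hAsurj a ha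
        refine ⟨φ a, mem_filter.2 ⟨mem_univ _, ?_, ?_⟩, q3⟩
        · rw [pair_comm, hadj _ y q1 hy q2 hyj, q3]; exact hlt
        · rw [pair_comm, hadj _ y' q1 hy' q2 hyj', q3]; exact hlt'

/-- missing types which are not cyclically adjacent -/
theorem col_far (h : GoodC p r n T ty G) (hn : r + 2 ≤ n) {s : Finset V}
    (hs : 0 < Wt T s) (hsc : s.card + 2 = r + 1) {i j : ℕ}
    (hi : i ∈ range (r + 1) \ s.image ty) (hj : j ∈ range (r + 1) \ s.image ty) (hij : i ≠ j)
    {v : V} (hv : v ∈ s) (h1 : cpos r (ty v) i + 2 ≤ cpos r (ty v) j) :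
    Col ty (lk T s) i {j} (1 / Real.sqrt p) := by
  obtain ⟨htypes, hex⟩ := types_of_s h.typed hs hsc hi hj hij
  have hir : i ≤ r := by have := mem_range.1 (mem_sdiff.1 hi).1; omega
  have hjr : j ≤ r := by have := mem_range.1 (mem_sdiff.1 hj).1; omega
  have hU : Typed {i, j} ty (lk T s) := by rw [← htypes]; exact h.typed.lk s
  obtain ⟨E, i1, i2, i3, J, s₀, φ, α, ch, d1, d2, d3, d4, d5, d6, d7, d8⟩ :=
    adj_data h hs hsc hv hn
  have hvi : ty v ≠ i := by rintro rfl; exact (mem_sdiff.1 hi).2 (mem_image_of_mem _ hv)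
  have hvj : ty v ≠ j := by rintro rfl; exact (mem_sdiff.1 hj).2 (mem_image_of_mem _ hv)
  have hpi := cpos_pos d2 hir hvi
  have hpj := cpos_pos d2 hjr hvj
  obtain ⟨t, ht, htv, htp⟩ := cpos_exists (r := r) (a := ty v) (q := cpos r (ty v) i + 1) d2
    (by omega) (by omega)
  obtain ⟨w, hw, rfl⟩ := hex t ht (by rintro rfl; omega) (by rintro rfl; omega)
  have hwv : w ≠ v := fun e => htv (by rw [e])
  have hT1 := d4 w hw hwv
  have hT1L : α w ∈ LL J s₀ := d3.1 _ hT1.1
  have hnlt : s₀ + finrank (ZMod p) J < finrank (ZMod p) E := by omega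
  refine col_of_complete hij hU ?_ (by positivity)
  intro x y hx hy hxi hyj
  have h3 := d6 x hx
  have h4 := d6 y hy
  have h5 : α x < α w := lt_of_pos_lt hnlt h3.2.1 hT1L (h3.2.2.2.2 _ hT1.1) (by
    rw [h3.2.2.1, hT1.2, hxi, htp]; omega)
  have h6 : α w < α y := lt_of_pos_lt hnlt hT1L h4.2.1 (h4.2.2.2.2 _ hT1.1).symm (by
    rw [h4.2.2.1, hT1.2, hyj, htp]; omega)
  exact (d7 x y hx hy (by rw [hxi, hyj]; exact hij) (by
    rw [h3.2.2.1, h4.2.2.1, hxi, hyj]; omega)).2 (h5.trans h6)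

theorem good_col_lt (h : GoodC p r n T ty G) (hr : 3 ≤ r)
    (hn : r + 2 ≤ n) (s : Finset V) (hsc : s.card + 2 = r + 1) (i j : ℕ)
    (hi : i ∈ range (r + 1) \ s.image ty) (hj : j ∈ range (r + 1) \ s.image ty) (hij : i < j) :
    Col ty (lk T s) i {j} (1 / Real.sqrt p) := by
  rcases Nat.eq_zero_or_pos (Wt T s) with hs | hs
  · have he : lk T s = ∅ := by rw [← card_eq_zero, lk_card, hs]
    rw [he]
    intro F G' _ _
    simp
  have hjr : j ≤ r := by have := mem_range.1 (mem_sdiff.1 hj).1; omega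
  rcases two_types hr hij hjr with ⟨c, hc, hci, hcj, h1, h2⟩ | ⟨c, hc, hci, hcj, h1, h2⟩ | hfar
  · exact col_adj h hr hn hs hsc hi hj hij.ne hc hci hcj h1 h2
  · exact Col.symm2 (col_adj h hr hn hs hsc hj hi hij.ne' hc hcj hci h2 h1)
  · have hne : s.Nonempty := card_pos.1 (by omega)
    obtain ⟨v, hv⟩ := hne
    have hvr : ty v ≤ r := by
      unfold Wt at hs
      obtain ⟨t, ht⟩ := card_pos.1 hs
      rw [mem_filter] at ht
      have : ty v ∈ range (r + 1) := by
        rw [← h.typed.img t ht.1]; exact mem_image_of_mem _ (ht.2 hv)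
      rw [mem_range] at this; omega
    have hvi : ty v ≠ i := by rintro rfl; exact (mem_sdiff.1 hi).2 (mem_image_of_mem _ hv)
    have hvj : ty v ≠ j := by rintro rfl; exact (mem_sdiff.1 hj).2 (mem_image_of_mem _ hv)
    rcases hfar (ty v) hvr hvi hvj with h1 | h1
    · exact col_far h hn hs hsc hi hj hij.ne hv h1
    · exact Col.symm2 (col_far h hn hs hsc hj hi hij.ne' hv h1)

end

theorem good_col {p r n : ℕ} [Fact p.Prime] {V : Type} [Fintype V] {T : Finset (Finset V)}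
    {ty : V → ℕ} {G : Type} [Group G] [MulAction G V] (h : GoodC p r n T ty G) (hr : 3 ≤ r)
    (hn : r + 2 ≤ n) (s : Finset V) (hs : s.card + 2 = r + 1) :
    ∀ i ∈ range (r + 1) \ s.image ty, ∀ j ∈ range (r + 1) \ s.image ty, i ≠ j →
      Col ty (lk T s) i {j} (1 / Real.sqrt p) := by
  intro i hi j hj hij
  rcases lt_or_gt_of_ne hij with h1 | h1
  · exact good_col_lt h hr hn s hs i j hi hj h1
  · exact Col.symm2 (good_col_lt h hr hn s hs j i hj hi h1)

end P067Y
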