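import Vale.Agent.P067Y.XLinkM

/-!
# P067, module XCONN: connectivity of the links
-/

namespace P067Y

open Classical Finset Module Vale.Agent.P067A P067X

/-- position of the vertices of the link -/
theorem link_vertex {p r : ℕ} [Fact p.Prime] {V : Type} [Fintype V] {T : Finset (Finset V)}
    {ty : V → ℕ} {s : Finset V} {v : V}
    {E : Type} [AddCommGroup E] [Module (ZMod p) E] [FiniteDimensional (ZMod p) E]
    {J : Submodule (ZMod p) E} {φ : Submodule (ZMod p) E → V} {c : Finset (Submodule (ZMod p) E)}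
    (hc : c ∈ OC (LL J (r - ty v)))
    (h6 : CxIso (Lk (OC (LL J (r - ty v))) c) (Lk (KT T) s) φ)
    {x : V} (hx : 0 < Wt (lk T s) {x}) :
    ∃ T' : Submodule (ZMod p) E, φ T' = x ∧ {T'} ∈ Lk (OC (LL J (r - ty v))) c := by
  rw [Wt_lk_pos_iff] at hx
  have hx' : {x} ∈ Lk (KT T) s := by
    refine ⟨hx.1, ?_⟩
    obtain ⟨t, ht⟩ := card_pos.1 hx.2
    rw [mem_filter] at ht
    exact ⟨t, ht.1, ht.2⟩
  obtain ⟨σ, hσ, hσx⟩ := h6.surj _ hx'
  have h7 : x ∈ σ.image φ := by rw [← hσx]; exact mem_singleton_self x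
  obtain ⟨T', hT', hT'x⟩ := mem_image.1 h7
  exact ⟨T', hT'x, (isCx_Lk (isCx_OC _) hc).2 σ hσ _ (by simpa using hT')⟩

theorem good_conn : ∃ p₀ : ℕ, ∀ (p r n : ℕ) [Fact p.Prime], p₀ ≤ p → 3 ≤ r → r + 3 ≤ n →
    ∀ (V : Type) [Fintype V] (T : Finset (Finset V)) (ty : V → ℕ) (G : Type) [Group G]
      [MulAction G V], GoodC p r n T ty G → ∀ s : Finset V, s.Nonempty → s.card + 3 ≤ r + 1 →
      Conn (lk T s) := by
  obtain ⟨p₀, B, hB⟩ := fill_link 1
  refine ⟨p₀, ?_⟩
  intro p r n _ hp hr hn V _ T ty G _ _ h s hne hcard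
  by_cases hs : s ∈ KT T
  swap
  · rw [lk_eq_empty hs]
    exact Conn_empty
  obtain ⟨hS1, hS2⟩ := card_image_ty h hs
  have hex : ∃ t0, t0 ≤ r ∧ t0 ∉ s.image ty := by
    by_contra hcon
    push Not at hcon
    have h1 : range (r + 1) ⊆ s.image ty := fun t ht => hcon t (by have := mem_range.1 ht; omega)
    have h2 := card_le_card h1
    rw [card_range] at h2
    omega
  obtain ⟨t0, ht0, ht0S⟩ := hex
  obtain ⟨a, haS, t1, ht1, ht1S, ht1p⟩ := exists_succ_missing hS1 (hne.image ty) ht0 ht0S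
  obtain ⟨v, hv, rfl⟩ := mem_image.1 haS
  obtain ⟨E, i1, i2, i3, J, φ, c, h1, h2, h3, h4, h5, h6, h7⟩ := link_model h hs hv
  have hsum : (r - ty v) + finrank (ZMod p) J = r := by omega
  have hlt : (r - ty v) + finrank (ZMod p) J < finrank (ZMod p) E := by omega
  have hcs : ∀ T' ∈ c, φ T' ∈ s := fun T' hT' => by
    have : φ T' ∈ s.erase v := by rw [← h5]; exact mem_image_of_mem _ hT'
    exact mem_of_mem_erase this
  have hpos2 : ∀ T' ∈ c, 2 ≤ pos J (r - ty v) T' := by
    intro T' hT'
    obtain ⟨e1, e2, e3⟩ := h7 T' (h4.1 T' hT')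
    have e4 := cpos_pos h3 e1 (Ne.symm e2)
    by_contra hcon
    have e5 : cpos r (ty v) (ty (φ T')) = cpos r (ty v) t1 := by rw [ht1p]; omega
    have e6 := cpos_inj h3 e1 ht1 e5
    exact ht1S (e6 ▸ mem_image_of_mem _ (hcs T' hT'))
  by_cases hbig : ∀ T' ∈ c, 4 ≤ pos J (r - ty v) T'
  · have hfill : ∀ j ≤ 1, Fill (Lk (KT T) s) j (coneA B j) (coneB B j) := by
      intro j hj
      rw [← h6.fill (isCx_Lk (isCx_OC _) h4)]
      refine hB p hp E J (r - ty v) (by omega) (by omega) c h4 ?_ j hj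
      intro T' hT'
      exact cond_of_pos hlt (h4.1 T' hT') (hbig T' hT')
    have h8 := acyc_of_fill (isCx_Lk (isCx_KT T h.ne) hs) B 1 hfill 1 le_rfl
    rw [← lk_KT] at h8
    exact conn_of_acyc _ h8
  · push Not at hbig
    obtain ⟨T0, hT0, hT0p⟩ := hbig
    obtain ⟨T₁, hT₁, hmin⟩ := exists_min_image c (fun T' => pos J (r - ty v) T') ⟨T0, hT0⟩
    have ha3 : pos J (r - ty v) T₁ ≤ 3 := by have := hmin T0 hT0; omega
    have ha2 := hpos2 T₁ hT₁
    -- vertices of the link
    have key : ∀ x, 0 < Wt (lk T s) {x} → ∃ T', φ T' = x ∧ T' ∈ LL J (r - ty v) ∧ T' ∉ c ∧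
        insert T' c ∈ OC (LL J (r - ty v)) ∧ {T'} ∈ Lk (OC (LL J (r - ty v))) c := by
      intro x hx
      obtain ⟨T', h8, h9⟩ := link_vertex h4 h6 hx
      have h10 : c ∪ {T'} ∈ OC (LL J (r - ty v)) := h9.2
      refine ⟨T', h8, h10.1 T' (by simp), ?_, ?_, h9⟩
      · intro hcon
        exact (disjoint_left.1 h9.1) hcon (mem_singleton_self _)
      · rwa [union_comm, ← insert_eq] at h10
    have hpair : ∀ x y, 0 < Wt (lk T s) {x} → 0 < Wt (lk T s) {y} →
        cpos r (ty v) (ty x) < pos J (r - ty v) T₁ → pos J (r - ty v) T₁ < cpos r (ty v) (ty y) →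
        ∃ t ∈ lk T s, x ∈ t ∧ y ∈ t := by
      intro x y hx hy hxa hya
      obtain ⟨Tx, ex1, ex2, ex3, ex4, ex5⟩ := key x hx
      obtain ⟨Ty, ey1, ey2, ey3, ey4, ey5⟩ := key y hy
      have px : pos J (r - ty v) Tx < pos J (r - ty v) T₁ := by
        rw [← (h7 Tx ex2).2.2, ex1]; exact hxa
      have py : pos J (r - ty v) T₁ < pos J (r - ty v) Ty := by
        rw [← (h7 Ty ey2).2.2, ey1]; exact hya
      have hTx : Tx < T₁ := (chain_pos_inj hlt ex4 (mem_insert_self _ _)
        (mem_insert_of_mem hT₁)).2 px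
      have hTy : T₁ < Ty := (chain_pos_inj hlt ey4 (mem_insert_of_mem hT₁)
        (mem_insert_self _ _)).2 py
      have hch : ({Tx, Ty} : Finset (Submodule (ZMod p) E)) ∈ Lk (OC (LL J (r - ty v))) c := by
        refine ⟨?_, ?_, ?_⟩
        · rw [disjoint_left]
          intro z hz hz'
          rcases mem_insert.1 hz' with rfl | hz'
          · exact ex3 hz
          · rw [mem_singleton] at hz'
            exact ey3 (hz' ▸ hz)
        · intro z hz
          rcases mem_union.1 hz with hz | hz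
          · exact h4.1 z hz
          · rcases mem_insert.1 hz with rfl | hz
            · exact ex2
            · rw [mem_singleton] at hz
              exact hz ▸ ey2
        · have cx : ∀ z ∈ insert Tx c, ∀ w ∈ insert Tx c, z ≠ w → z ≤ w ∨ w ≤ z :=
            fun z hz w hw hzw => ex4.2 (mem_coe.2 hz) (mem_coe.2 hw) hzw
          have cy : ∀ z ∈ insert Ty c, ∀ w ∈ insert Ty c, z ≠ w → z ≤ w ∨ w ≤ z :=
            fun z hz w hw hzw => ey4.2 (mem_coe.2 hz) (mem_coe.2 hw) hzw
          have hxy : Tx ≤ Ty := (hTx.trans hTy).le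
          intro z hz w hw hzw
          simp only [coe_union, coe_insert, coe_singleton, Set.mem_union, Set.mem_insert_iff,
            Set.mem_singleton_iff, mem_coe] at hz hw
          rcases hz with hz | rfl | rfl <;> rcases hw with hw | rfl | rfl
          · exact cx z (mem_insert_of_mem hz) w (mem_insert_of_mem hw) hzw
          · exact cx z (mem_insert_of_mem hz) _ (mem_insert_self _ _) hzw
          · exact cy z (mem_insert_of_mem hz) _ (mem_insert_self _ _) hzw
          · exact cx _ (mem_insert_self _ _) w (mem_insert_of_mem hw) hzw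
          · exact Or.inl le_rfl
          · exact Or.inl hxy
          · exact cy _ (mem_insert_self _ _) w (mem_insert_of_mem hw) hzw
          · exact Or.inr hxy
          · exact Or.inl le_rfl
      have h8 := (h6.mem {Tx, Ty} (by
        intro z hz
        rcases mem_insert.1 hz with rfl | hz
        · exact ex5
        · rw [mem_singleton] at hz
          exact hz ▸ ey5)).1 hch
      rw [image_insert, image_singleton, ex1, ey1, ← lk_KT] at h8
      obtain ⟨t, ht, htt⟩ := h8
      exact ⟨t, ht, htt (mem_insert_self _ _), htt (by simp)⟩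
    -- a top face of the link
    have hlkT := h.typed.lk s
    obtain ⟨tt, htt, hstt⟩ := hs
    have hlk : tt \ s ∈ lk T s := by
      rw [mem_lk]
      exact ⟨disjoint_sdiff, by rw [union_sdiff_of_subset hstt]; exact htt⟩
    have hWt : ∀ x ∈ tt \ s, 0 < Wt (lk T s) {x} := fun x hx =>
      card_pos.2 ⟨tt \ s, mem_filter.2 ⟨hlk, by simpa using hx⟩⟩
    have himg := hlkT.img _ hlk
    -- a vertex with small position
    obtain ⟨x0, hx0, hx0t⟩ : ∃ x0 ∈ tt \ s, ty x0 = t1 := by
      have : t1 ∈ (tt \ s).image ty := by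
        rw [himg, mem_sdiff]
        exact ⟨mem_range.2 (by omega), ht1S⟩
      exact mem_image.1 this
    -- a vertex with large position
    obtain ⟨y0, hy0, hy0t⟩ : ∃ y0 ∈ tt \ s, pos J (r - ty v) T₁ < cpos r (ty v) (ty y0) := by
      by_contra hcon
      push Not at hcon
      have h8 : ∀ b ∈ range (r + 1) \ s.image ty, cpos r (ty v) b ∈ ({1, 2} : Finset ℕ) := by
        intro b hb
        rw [← himg] at hb
        obtain ⟨y, hy, rfl⟩ := mem_image.1 hb
        have h9 := hcon y hy
        have hb' : ty y ∈ range (r + 1) \ s.image ty := by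
          rw [← himg]; exact mem_image_of_mem _ hy
        rw [mem_sdiff, mem_range] at hb'
        have h10 := cpos_pos h3 (show ty y ≤ r by omega)
          (fun e => hb'.2 (e ▸ mem_image_of_mem _ hv))
        have h11 : cpos r (ty v) (ty y) ≠ pos J (r - ty v) T₁ := by
          intro e
          obtain ⟨e1, e2, e3⟩ := h7 T₁ (h4.1 T₁ hT₁)
          rw [← e3] at e
          have := cpos_inj h3 (show ty y ≤ r by omega) e1 e
          exact hb'.2 (this ▸ mem_image_of_mem _ (hcs T₁ hT₁))
        simp only [mem_insert, mem_singleton]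
        omega
      have h9 : (range (r + 1) \ s.image ty).card ≤ ({1, 2} : Finset ℕ).card := by
        refine card_le_card_of_injOn (fun b => cpos r (ty v) b) (fun b hb => h8 b hb) ?_
        intro b hb b' hb' hbb
        simp only [coe_sdiff, coe_range, Set.mem_sdiff, Set.mem_Iio] at hb hb'
        exact cpos_inj h3 (by omega) (by omega) hbb
      rw [card_sdiff_of_subset hS1, card_range, hS2] at h9
      simp at h9
      omega
    intro f hf x y hx hy
    have hall : ∀ z, 0 < Wt (lk T s) {z} → f z = f y0 := by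
      intro z hz
      obtain ⟨Tz, ez1, ez2, ez3, ez4, ez5⟩ := key z hz
      have hne' : cpos r (ty v) (ty z) ≠ pos J (r - ty v) T₁ := by
        rw [← ez1, (h7 Tz ez2).2.2]
        intro e
        have c1 := chain_pos_inj hlt ez4 (mem_insert_self _ _) (mem_insert_of_mem hT₁)
        have c2 := chain_pos_inj hlt ez4 (mem_insert_of_mem hT₁) (mem_insert_self _ _)
        have hzT : Tz ≠ T₁ := fun e' => ez3 (e' ▸ hT₁)
        rcases ez4.2 (mem_coe.2 (mem_insert_self _ _)) (mem_coe.2 (mem_insert_of_mem hT₁)) hzT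
          with h8 | h8
        · have := c1.1 (lt_of_le_of_ne h8 hzT); omega
        · have := c2.1 (lt_of_le_of_ne h8 (Ne.symm hzT)); omega
      have hx0p : cpos r (ty v) (ty x0) < pos J (r - ty v) T₁ := by
        rw [hx0t, ht1p]; omega
      have h00 : f x0 = f y0 := hf _ hlk x0 hx0 y0 hy0
      rcases lt_or_gt_of_ne hne' with h8 | h8
      · obtain ⟨t, ht, hzt, hyt⟩ := hpair z y0 hz (hWt y0 hy0) h8 hy0t
        exact hf t ht z hzt y0 hyt
      · obtain ⟨t, ht, hxt, hzt⟩ := hpair x0 z (hWt x0 hx0) hz hx0p h8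
        rw [← h00]
        exact (hf t ht x0 hxt z hzt).symm
    rw [hall x hx, hall y hy]

end P067Y
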