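import Vale.Agent.P067X.LinkIso
import Vale.Agent.P067Y.XModel

/-!
# P067, module XLINK: the links of all vertices of `XX`

PROOF.  `S = g std U` (`mem_XX_single`), `finrank U = ty S` (`ty_std`).  `E = EE U`, `J = JJ U`, `φ T = (A.lv T).map (gm p g)`: `link_iso`, `finrank_EE`, `finrank_JJ`,
`CxIso.comp` with the isomorphism `Lk XX {std U} → Lk XX {g std U}` given by `g` (`XX_map`, `map_gm_injective`).  Types: `finrank_map_gm`; if `T ⊔ JJ U = ⊤`: `lv_lower`:
`ty (φ T) = finrank (T ⊓ J) < finrank U`, `cpos = ty + (r+1) - finrank U = (r - finrank U) + 1 + ty = pos` (`pos_of_second`, use `r < card ι`);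
otherwise `lv_upper`: `ty (φ T) = finrank U + finrank T`, `cpos = finrank T = pos` (`pos_of_first`), `finrank T > 0` as `T ≠ ⊥`.
-/

namespace P067Y

open Classical Finset Module Vale.Agent.P067A P067X

variable {p m : ℕ} [Fact p.Prime] {R : Type} [CommRing R] [Algebra (ZMod p) R]
  {ι : Type} [Fintype ι] [DecidableEq ι]


private theorem xlink_ty_map (g : Matrix.SpecialLinearGroup ι R)
    (S : Submodule (ZMod p) (ι → R)) : ty (S.map (gm p g.1)) = ty S := by
  unfold ty
  rw [finrank_map_gm]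

private theorem xlink_iso (A : TR p m R) (r : ℕ) (g : Matrix.SpecialLinearGroup ι R)
    (S : Submodule (ZMod p) (ι → R)) :
    CxIso (Lk (A.XX ι r) {S}) (Lk (A.XX ι r) {S.map (gm p g.1)})
      (fun S => S.map (gm p g.1)) := by
  have hmem : ∀ σ : Finset (Submodule (ZMod p) (ι → R)),
      σ ∈ Lk (A.XX ι r) {S} ↔ σ.image (fun S => S.map (gm p g.1)) ∈
        Lk (A.XX ι r) {S.map (gm p g.1)} := by
    intro σ
    show (Disjoint {S} σ ∧ {S} ∪ σ ∈ A.XX ι r) ↔ _
    have h1 : Disjoint {S} σ ↔ Disjoint {S.map (gm p g.1)}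
        (σ.image (fun S => S.map (gm p g.1))) := by
      rw [← Finset.image_singleton (fun S => S.map (gm p g.1)) S,
        Finset.disjoint_image (map_gm_injective g)]
    have h2 : {S} ∪ σ ∈ A.XX ι r ↔
        {S.map (gm p g.1)} ∪ σ.image (fun S => S.map (gm p g.1)) ∈ A.XX ι r := by
      rw [← XX_map A r g, Finset.image_union, Finset.image_singleton]
    rw [h1, h2]
    rfl
  refine ⟨fun x y _ _ h => map_gm_injective g h, fun σ _ => hmem σ, fun τ hτ => ?_⟩
  have h3 : τ = (τ.image (fun S => S.map (gm p (g⁻¹).1))).image (fun S => S.map (gm p g.1)) := by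
    rw [Finset.image_image]
    conv_lhs => rw [← Finset.image_id (s := τ)]
    refine Finset.image_congr fun x _ => ?_
    exact (map_gm_inv' g x).symm
  refine ⟨τ.image (fun S => S.map (gm p (g⁻¹).1)), ?_, h3⟩
  rw [hmem, ← h3]
  exact hτ

theorem lmodel_XX (A : TR p m R) (hm : 3 ≤ m) (r : ℕ) (hr : r + 2 ≤ Fintype.card ι)
    (S : Submodule (ZMod p) (ι → R)) (hS : {S} ∈ A.XX ι r) :
    LModel p r (Fintype.card ι) (A.XX ι r) ty S := by
  obtain ⟨g, U, hU, rfl⟩ := (mem_XX_single A r S).1 hS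
  have hty : ty ((A.std U).map (gm p g.1)) = finrank (ZMod p) U := ty_std A (by omega) g U
  have hE := finrank_EE U
  have hJ := finrank_JJ U
  refine ⟨EE U, inferInstance, inferInstance, inferInstance, JJ U,
    fun T => (A.lv T).map (gm p g.1), hE, by rw [hty, hJ], by rw [hty]; exact hU, ?_, ?_⟩
  · rw [hty]
    exact (link_iso A hm r (by omega) U hU).comp (xlink_iso A r g (A.std U))
  · rw [hty]
    intro T hT
    have hn : (r - finrank (ZMod p) U) + finrank (ZMod p) (JJ U) < finrank (ZMod p) (EE U) := by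
      rw [hE, hJ]; omega
    show ty ((A.lv T).map (gm p g.1)) ≤ r ∧ ty ((A.lv T).map (gm p g.1)) ≠ _ ∧
      cpos r _ (ty ((A.lv T).map (gm p g.1))) = _
    rw [xlink_ty_map]
    by_cases h : T ⊔ JJ U = ⊤
    · obtain ⟨e1, e2, e3, e4, e5⟩ := lv_lower A hm r (by omega) U hU T hT h
      rw [pos_of_second hn h, ← e4]
      refine ⟨by omega, by omega, ?_⟩
      unfold cpos
      rw [if_neg (by omega)]
      omega
    · obtain ⟨e1, e2, e3, e4, e5⟩ := lv_upper A hm r (by omega) U hU T hT h
      have h0 : 0 < finrank (ZMod p) T := by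
        rw [Nat.pos_iff_ne_zero]
        intro h0
        exact (mem_LL.1 hT).2.2 (Submodule.finrank_eq_zero.1 h0)
      rw [pos_of_first e3 e4, e5]
      refine ⟨by omega, by omega, ?_⟩
      unfold cpos
      rw [if_pos (by omega)]
      omega

end P067Y
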