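import Vale.Agent.P067X.XDefs

/-!
# P067, module XNUMV: number of vertices
-/

namespace P067Y

open Classical Finset Module P067X

section

variable {p m : ℕ} [Fact p.Prime] {R : Type} [CommRing R] [Algebra (ZMod p) R]
  {ι : Type} [Fintype ι] [DecidableEq ι]

theorem xnumv_co_pow (A : TR p m R) (k : ℕ) (hk : k < m) (b : ℕ) :
    A.co b (A.t ^ k) = if b = k then 1 else 0 := by
  induction k generalizing b with
  | zero => rw [pow_zero, A.co_one]
  | succ k ih =>
    rw [pow_succ']
    cases b with
    | zero => rw [A.co_t_zero, if_neg (by omega)]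
    | succ b =>
      rw [A.co_t, ih (by omega) b]
      by_cases hb : b = k
      · subst hb
        simp [hk]
      · simp [hb]

/-- the transvection as an element of the special linear group -/
noncomputable def xnumvT (i j : ι) (h : i ≠ j) (a : R) : Matrix.SpecialLinearGroup ι R :=
  ⟨Matrix.transvection i j a, Matrix.det_transvection_of_ne i j h a⟩

theorem xnumv_mulVec (i j : ι) (h : i ≠ j) (a : R) (v : ι → R) :
    (xnumvT i j h a).1.mulVec v = fun k => v k + if k = i then a * v j else 0 := by
  funext k
  change ((Matrix.transvection i j a).mulVec v) k = _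
  rw [Matrix.transvection, Matrix.add_mulVec, Matrix.one_mulVec, Pi.add_apply]
  congr 1
  rw [Matrix.mulVec, dotProduct]
  by_cases hk : k = i
  · subst hk
    rw [if_pos rfl, Finset.sum_eq_single j]
    · simp [Matrix.single]
    · intro b _ hb
      simp [Matrix.single, Ne.symm hb]
    · simp
  · rw [if_neg hk]
    refine Finset.sum_eq_zero fun b _ => ?_
    simp [Matrix.single, Ne.symm hk]

end

theorem many_vertices_proved {p m : ℕ} [Fact p.Prime] {R : Type} [CommRing R] [Algebra (ZMod p) R]
    (A : TR p m R) (_hm : 3 ≤ m) (ι : Type) [Fintype ι] [DecidableEq ι] (r : ℕ)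
    (hι : 2 ≤ Fintype.card ι) :
    ∃ f : Fin (m - 1) → Submodule (ZMod p) (ι → R), Function.Injective f ∧
      ∀ e, {f e} ∈ A.XX ι r := by
  obtain ⟨i, j, hij⟩ := Fintype.exists_pair_of_one_lt_card (by omega : 1 < Fintype.card ι)
  refine ⟨fun e => (A.std ⊥).map (gm p (xnumvT i j hij (A.t ^ (e.1 + 1))).1), ?_, ?_⟩
  · intro e e' hee
    simp only at hee
    -- the vector `e_j`
    have hstd : (Pi.single j 1 : ι → R) ∈ A.std (⊥ : Submodule (ZMod p) (ι → ZMod p)) := by
      have hc : ∀ a, 1 ≤ a → A.vco a (Pi.single j 1 : ι → R) = 0 := by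
        intro a ha
        funext k
        change A.co a ((Pi.single j 1 : ι → R) k) = 0
        by_cases hk : k = j
        · subst hk
          rw [Pi.single_eq_same, A.co_one, if_neg (by omega)]
        · rw [Pi.single_eq_of_ne hk, map_zero]
      refine ⟨?_, fun a ha => hc a (by omega)⟩
      rw [hc 1 le_rfl]
      exact Submodule.zero_mem _
    have h1 : (gm p (xnumvT i j hij (A.t ^ (e'.1 + 1))).1) (Pi.single j 1) ∈
        (A.std ⊥).map (gm p (xnumvT i j hij (A.t ^ (e.1 + 1))).1) := by
      rw [hee]
      exact Submodule.mem_map_of_mem hstd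
    obtain ⟨v, hv, hvw⟩ := h1
    obtain ⟨hv1, hv2⟩ := hv
    have hvi := congrFun hvw i
    have hvj := congrFun hvw j
    change (xnumvT i j hij (A.t ^ (e.1 + 1))).1.mulVec v i =
      (xnumvT i j hij (A.t ^ (e'.1 + 1))).1.mulVec (Pi.single j 1) i at hvi
    change (xnumvT i j hij (A.t ^ (e.1 + 1))).1.mulVec v j =
      (xnumvT i j hij (A.t ^ (e'.1 + 1))).1.mulVec (Pi.single j 1) j at hvj
    rw [xnumv_mulVec, xnumv_mulVec] at hvi hvj
    simp only [if_pos, if_neg hij.symm, add_zero, Pi.single_eq_same,
      Pi.single_eq_of_ne hij, zero_add, mul_one] at hvi hvj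
    rw [hvj, mul_one] at hvi
    have hv3 : v i = A.t ^ (e'.1 + 1) - A.t ^ (e.1 + 1) := by
      rw [← hvi]; ring
    have hco : A.co (e.1 + 1) (v i) = 0 := by
      by_cases he0 : e.1 = 0
      · have h2 : A.vco 1 v = 0 := by
          simpa using hv1
        have h3 := congrFun h2 i
        rw [he0]
        exact h3
      · exact congrFun (hv2 (e.1 + 1) (by omega)) i
    rw [hv3, map_sub, xnumv_co_pow A _ (by omega), xnumv_co_pow A _ (by omega), if_pos rfl] at hco
    by_contra hne
    have hne' : ¬ (e.1 + 1 = e'.1 + 1) := by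
      intro h
      exact hne (Fin.ext (by omega))
    rw [if_neg hne'] at hco
    have : (1 : ZMod p) = 0 := by linear_combination -hco
    exact one_ne_zero this
  · intro e
    refine ⟨xnumvT i j hij (A.t ^ (e.1 + 1)), {⊥}, ?_, ?_, ?_⟩
    · simp
    · intro U hU
      rw [Finset.mem_singleton] at hU
      subst hU
      simp
    · simp

end P067Y
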