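import Vale.Agent.P067Y.XNumQ
import Vale.Agent.P067Y.XNumV

/-!
# P067, module XNUM: bounded degree, number of vertices
-/

namespace P067Y

open Classical Finset Module Vale.Agent.P067A P067X

theorem good_Q (p n : ℕ) [Fact p.Prime] : ∃ Q : ℕ, 0 < Q ∧
    ∀ (r : ℕ) (V : Type) [Fintype V] (T : Finset (Finset V)) (ty : V → ℕ) (G : Type) [Group G]
      [MulAction G V], GoodC p r n T ty G → ∀ s : Finset V, s.Nonempty → Wt T s ≤ Q :=
  good_Q_proved p n

theorem many_vertices {p m : ℕ} [Fact p.Prime] {R : Type} [CommRing R] [Algebra (ZMod p) R]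
    (A : TR p m R) (hm : 3 ≤ m) (ι : Type) [Fintype ι] [DecidableEq ι] (r : ℕ)
    (hι : 2 ≤ Fintype.card ι) :
    ∃ f : Fin (m - 1) → Submodule (ZMod p) (ι → R), Function.Injective f ∧
      ∀ e, {f e} ∈ A.XX ι r :=
  many_vertices_proved A hm ι r hι

end P067Y
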