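import Vale.Agent.P067A.Sub
import Vale.Agent.P067X.Vanish
import Vale.Agent.P067X.TRInst
import Vale.Agent.P067Y.XBase
import Vale.Agent.P067Y.XLink
import Vale.Agent.P067Y.XCol
import Vale.Agent.P067Y.XConn
import Vale.Agent.P067Y.XCE
import Vale.Agent.P067Y.XNum

/-!
# P067: bounded degree coboundary expanders of every dimension (final assembly)
-/

set_option linter.unusedSectionVars false

namespace P067Y

open Classical Finset Module Vale.Agent.P067A P067X

open Vale.Agent.P067 (IsPure topDegree IsCoboundaryExpander)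

theorem good_XT {p m : ℕ} [Fact p.Prime] {R : Type} [CommRing R] [Algebra (ZMod p) R]
    {ι : Type} [Fintype ι] [DecidableEq ι] (A : TR p m R) (hm : 3 ≤ m) (r : ℕ)
    (hr : r + 2 ≤ Fintype.card ι) :
    letI := slAct p R ι
    GoodC p r (Fintype.card ι) (XT A ι r) ty (Matrix.SpecialLinearGroup ι R) := by
  let := slAct p R ι
  refine ⟨XT_nonempty A (by omega) r (by omega), typed_XT A (by omega) r,
    trans_XT A (by omega) r (by omega), ?_⟩
  intro v hv
  rw [KT_XT A (by omega) r (by omega)] at hv ⊢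
  exact lmodel_XX A hm r hr v hv

theorem exists_prime_small (lam : ℝ) (hlam : 0 < lam) (q : ℕ) :
    ∃ p : ℕ, q ≤ p ∧ p.Prime ∧ 1 / Real.sqrt p ≤ lam := by
  obtain ⟨M, hM⟩ := exists_nat_ge (1 / lam ^ 2)
  obtain ⟨p, hp, hpp⟩ := Nat.exists_infinite_primes (max q M)
  refine ⟨p, (le_max_left _ _).trans hp, hpp, ?_⟩
  have h1 : (M : ℝ) ≤ p := by exact_mod_cast (le_max_right _ _).trans hp
  have h2 : 1 / lam ^ 2 ≤ p := hM.trans h1
  have h3 : 1 / lam ≤ Real.sqrt p := by
    refine Real.le_sqrt_of_sq_le ?_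
    rw [div_pow, one_pow]; exact h2
  rw [div_le_comm₀ (Real.sqrt_pos.2 (by exact_mod_cast hpp.pos)) hlam]
  exact h3

/-- the conclusion for a complex of the class `GoodC` with vanishing cohomology -/
theorem of_good (d : ℕ) (hd : 1 ≤ d) (r : ℕ) (hr1 : d * (2 * d + 2) < r + 1) (hr3 : 3 ≤ r)
    (n : ℕ) (hn : r + d + 3 ≤ n) (q : ℕ) :
    ∃ (p : ℕ) (_ : Fact p.Prime) (D : ℕ) (ε : ℝ), q ≤ p ∧ 0 < ε ∧
      ∀ (V : Type) [Fintype V] (T : Finset (Finset V)) (ty : V → ℕ) (G : Type) [Group G]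
        [Finite G] [MulAction G V], GoodC p r n T ty G → (∀ q ≤ d, Acyc (KT T) q) →
        ∀ (N : ℕ) (f : Fin N → V), Function.Injective f → (∀ e, {f e} ∈ KT T) →
        ∃ (V' : Type) (_ : Fintype V') (_ : DecidableEq V') (K : AbstractSimplicialComplex V'),
          N ≤ Fintype.card V' ∧ IsPure K d ∧ (edgeGraph K).Connected ∧
            (∀ v, topDegree K d {v} ≤ D) ∧ IsCoboundaryExpander K d ε := by
  obtain ⟨p₂, hconn⟩ := good_conn
  obtain ⟨p₃, β, hβ, hce⟩ := good_ce d r hd hr1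
  have hdd : 2 * d ≤ d * (2 * d + 2) := by nlinarith
  obtain ⟨lam0, hlam0, hA⟩ := partA_final d (r + 1) hd (by omega) β hβ
  obtain ⟨p, hp, hpp, hplam⟩ := exists_prime_small lam0 hlam0 (max q (max p₂ p₃))
  have hp1 : q ≤ p := (le_max_left _ _).trans hp
  have hp2 : p₂ ≤ p := (le_max_left _ _).trans ((le_max_right _ _).trans hp)
  have hp3 : p₃ ≤ p := (le_max_right _ _).trans ((le_max_right _ _).trans hp)
  have hF : Fact p.Prime := ⟨hpp⟩
  obtain ⟨Q, hQ0, hQ⟩ := good_Q p n
  obtain ⟨D, ε, hε, hA⟩ := hA Q hQ0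
  refine ⟨p, hF, D, ε, hp1, hε, ?_⟩
  intro V _ T ty G _ _ _ hgood hacyc N f hf hfK
  obtain ⟨K, hK1, hK2, hK3, hK4⟩ := hA V (range (r + 1)) ty T
    (card_range _) hgood.typed hgood.ne
    (fun s hs => hQ r V T ty G hgood s hs)
    (by
      intro s hs
      rcases s.eq_empty_or_nonempty with rfl | hne
      · rw [lk_empty]
        exact conn_of_acyc T (hacyc 1 hd)
      · exact hconn p r n hp2 hr3 (by omega) V T ty G hgood s hne hs)
    (by
      intro s hs i hi j hj hij
      exact (good_col hgood hr3 (by omega) s hs i hi j hj hij).mono hplam)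
    (fun s hs k h1 h2 => hce p n hp3 (by omega) V T ty G hgood s hs k h1 h2)
    (fun i _ hi => van_of_acyc T i (hacyc i hi))
  refine ⟨Vale.Agent.P067A.VV T, inferInstance, inferInstance, K, ?_, hK1, hK2, hK3, hK4⟩
  have hpos : ∀ e, 0 < Wt T {f e} := fun e => kt_iff.1 (hfK e)
  have h1 := Fintype.card_le_of_injective (fun e : Fin N =>
    (⟨f e, hpos e⟩ : Vale.Agent.P067A.VV T)) (by
      intro e e' h
      exact hf (Subtype.ext_iff.1 h))
  rw [Fintype.card_fin] at h1
  exact h1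

/-- **Bounded degree coboundary expanders exist in every dimension.** -/
theorem expanders (d : ℕ) (hd : 1 ≤ d) :
    ∃ (D : ℕ) (ε : ℝ), 0 < ε ∧ ∀ N : ℕ, ∃ (V : Type) (_ : Fintype V) (_ : DecidableEq V)
      (K : AbstractSimplicialComplex V), N ≤ Fintype.card V ∧ IsPure K d ∧
        (edgeGraph K).Connected ∧ (∀ v, topDegree K d {v} ≤ D) ∧ IsCoboundaryExpander K d ε := by
  set r : ℕ := d * (2 * d + 2) + 4 with hr
  have hdd : 2 * d ≤ d * (2 * d + 2) := by nlinarith
  set n : ℕ := r + (d + 3) ^ 2 with hn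
  have hn2 : d + 3 ≤ (d + 3) ^ 2 := by nlinarith
  obtain ⟨p₁, hvan⟩ := vanish d
  obtain ⟨p, hF, D, ε, hp, hε, hA⟩ := of_good d hd r (by omega) (by omega) n (by omega) p₁
  refine ⟨D, ε, hε, fun N => ?_⟩
  obtain ⟨R, iR, iA, ⟨A⟩⟩ := exists_TR p (N + 3) (by omega)
  have hcard : Fintype.card (Fin n) = n := Fintype.card_fin n
  have hfin : Finite (Submodule (ZMod p) (Fin n → R)) := finite_Vt A (Fin n)
  have iV : Fintype (Submodule (ZMod p) (Fin n → R)) := Fintype.ofFinite _
  have hSL : Finite (Matrix.SpecialLinearGroup (Fin n) R) := finite_SL A (Fin n)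
  have hgood : @GoodC p r n _ _ (XT A (Fin n) r) ty (Matrix.SpecialLinearGroup (Fin n) R) _
      (slAct p R (Fin n)) := by
    have := good_XT (ι := Fin n) A (by omega) r (by rw [hcard]; omega)
    rwa [hcard] at this
  have hKT : KT (XT A (Fin n) r) = A.XX (Fin n) r :=
    KT_XT A (by omega) r (by rw [hcard]; omega)
  obtain ⟨f, hf, hf'⟩ := many_vertices A (by omega) (Fin n) r (by rw [hcard]; omega)
  obtain ⟨V', j1, j2, K, k1, k2⟩ := @hA (Submodule (ZMod p) (Fin n → R)) iV (XT A (Fin n) r) ty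
    (Matrix.SpecialLinearGroup (Fin n) R) _ hSL (slAct p R (Fin n)) hgood (by
      intro q hq
      rw [hKT]
      exact hvan p hp (N + 3) (by omega) R A (Fin n) r (by omega) (by rw [hcard]) q hq)
    (N + 3 - 1) f hf (by
      intro e
      rw [hKT]; exact hf' e)
  exact ⟨V', j1, j2, K, by omega, k2⟩

end P067Y
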