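import Vale.Agent.P067X.Family

/-!
# P067: rank two intervals at the bottom of `QF J s True ⊤ ⊥`
-/

set_option linter.unusedSectionVars false

namespace P067Y

open Classical Module P067X

section family

variable {F E : Type*} [Field F] [AddCommGroup E] [Module F E] [FiniteDimensional F E]

theorem line_family {C D : Submodule F E} {z w : E} (hC : C ≤ D) (hz : z ∈ D) (hw : w ∈ D)
    (hwC : w ∉ C) (hzC : z ∉ C ⊔ F ∙ w) (c : F) :
    C ⊔ F ∙ (z + c • w) ≤ D ∧ finrank F (C ⊔ F ∙ (z + c • w) : Submodule F E) =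
      finrank F C + 1 ∧ w ∉ C ⊔ F ∙ (z + c • w) := by
  refine ⟨sup_le hC ?_, ?_, ?_⟩
  · rw [Submodule.span_singleton_le_iff_mem]
    exact D.add_mem hz (D.smul_mem _ hw)
  · refine Submodule.finrank_sup_span_singleton ?_
    intro h
    apply hzC
    have h1 : z = (z + c • w) + (-c) • w := by
      rw [neg_smul]; abel
    rw [h1]
    exact Submodule.add_mem_sup h (Submodule.smul_mem _ _ (Submodule.mem_span_singleton_self w))
  · intro h
    obtain ⟨y, hy, k, hk⟩ := Submodule.mem_sup.1 h
    obtain ⟨hk, he⟩ := hk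
    obtain ⟨a, rfl⟩ := Submodule.mem_span_singleton.1 hk
    by_cases ha : a = 0
    · rw [ha, zero_smul, add_zero] at he
      exact hwC (he ▸ hy)
    · apply hzC
      have h1 : z = (-a⁻¹) • y + (a⁻¹ - c) • w := by
        have h2 : a • z = -y + (1 - a * c) • w := by
          have : a • (z + c • w) = w - y := by rw [eq_sub_iff_add_eq, add_comm]; exact he
          rw [smul_add, smul_smul] at this
          rw [eq_sub_of_add_eq this, sub_smul, one_smul]
          abel
        have h3 : z = a⁻¹ • (a • z) := by rw [smul_smul, inv_mul_cancel₀ ha, one_smul]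
        rw [h3, h2, smul_add, smul_smul, smul_neg, neg_smul]
        congr 2
        field_simp
      rw [h1]
      exact Submodule.add_mem_sup (Submodule.smul_mem _ _ hy)
        (Submodule.smul_mem _ _ (Submodule.mem_span_singleton_self w))

theorem line_family_inj {C : Submodule F E} {z w : E}
    (hwC : w ∉ C) (hzC : z ∉ C ⊔ F ∙ w) :
    Function.Injective fun c : F => C ⊔ F ∙ (z + c • w) := by
  intro c c' h
  by_contra hne
  simp only at h
  refine (line_family (D := ⊤) le_top trivial trivial hwC hzC c).2.2 ?_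
  have h1 : z + c • w ∈ C ⊔ F ∙ (z + c • w) :=
    Submodule.mem_sup_right (Submodule.mem_span_singleton_self _)
  have h2 : z + c' • w ∈ C ⊔ F ∙ (z + c • w) := by
    rw [h]; exact Submodule.mem_sup_right (Submodule.mem_span_singleton_self _)
  have h3 : (c - c') • w ∈ C ⊔ F ∙ (z + c • w) := by
    have : (c - c') • w = (z + c • w) - (z + c' • w) := by rw [sub_smul]; abel
    rw [this]
    exact Submodule.sub_mem _ h1 h2
  exact (Submodule.smul_mem_iff _ (sub_ne_zero.2 hne)).1 h3

/-- the position of an element in the ranked poset -/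
noncomputable def pos (J : Submodule F E) (s : ℕ) (T : Submodule F E) : ℕ :=
  if T ⊓ J = ⊥ ∧ finrank F T ≤ s then finrank F T else s + 1 + finrank F (T ⊓ J : Submodule F E)

/-- the poset -/
abbrev LL (J : Submodule F E) (s : ℕ) : Set (Submodule F E) := QF J s True ⊤ ⊥

theorem mem_LL {J : Submodule F E} {s : ℕ} {T : Submodule F E} :
    T ∈ LL J s ↔ ((T ⊓ J = ⊥ ∧ finrank F T ≤ s) ∨ T ⊔ J = ⊤) ∧ T ≠ ⊤ ∧ T ≠ ⊥ := by
  unfold LL QF
  simp only [Set.mem_ofPred_eq, true_and, top_le_iff, le_bot_iff]

theorem finrank_second {J T : Submodule F E} (h : T ⊔ J = ⊤) :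
    finrank F E + finrank F (T ⊓ J : Submodule F E) = finrank F T + finrank F J := by
  rw [← Submodule.finrank_sup_add_finrank_inf_eq, h, finrank_top]

/-- the second part in terms of the position -/
theorem pos_gt {J T : Submodule F E} {s : ℕ} (hT : T ∈ LL J s) (h : s < pos J s T) :
    T ⊔ J = ⊤ ∧ pos J s T = s + 1 + finrank F (T ⊓ J : Submodule F E) := by
  rw [mem_LL] at hT
  unfold pos at h ⊢
  split_ifs at h ⊢ with h1
  · omega
  · exact ⟨hT.1.resolve_left h1, rfl⟩

theorem pos_le {J T : Submodule F E} {s : ℕ} (h : pos J s T ≤ s) :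
    T ⊓ J = ⊥ ∧ finrank F T = pos J s T := by
  unfold pos at h ⊢
  split_ifs at h ⊢ with h1
  · exact ⟨h1.1, rfl⟩
  · omega

theorem pos_of_first {J T : Submodule F E} {s : ℕ} (h : T ⊓ J = ⊥) (h2 : finrank F T ≤ s) :
    pos J s T = finrank F T := by
  unfold pos; rw [if_pos ⟨h, h2⟩]

theorem pos_of_second {J T : Submodule F E} {s : ℕ} (hn : s + finrank F J < finrank F E)
    (h : T ⊔ J = ⊤) : pos J s T = s + 1 + finrank F (T ⊓ J : Submodule F E) := by
  unfold pos
  rw [if_neg]
  rintro ⟨h1, h2⟩
  have := finrank_second h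
  rw [h1, finrank_bot] at this
  omega

theorem pos_lt_pos {J T T' : Submodule F E} {s : ℕ} (hn : s + finrank F J < finrank F E)
    (hT : T ∈ LL J s) (hT' : T' ∈ LL J s) (h : T < T') : pos J s T < pos J s T' := by
  rw [mem_LL] at hT hT'
  have hfr := Submodule.finrank_lt_finrank_of_lt h
  rcases hT.1 with ⟨h1, h2⟩ | h1
  · rw [pos_of_first h1 h2]
    rcases hT'.1 with ⟨h3, h4⟩ | h3
    · rw [pos_of_first h3 h4]; exact hfr
    · rw [pos_of_second hn h3]; omega
  · have h3 : T' ⊔ J = ⊤ := top_le_iff.1 (h1 ▸ sup_le_sup_right h.le J)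
    rw [pos_of_second hn h1, pos_of_second hn h3]
    have h4 := finrank_second h1
    have h5 := finrank_second h3
    omega

theorem pos_pos {J T : Submodule F E} {s : ℕ} (hT : T ∈ LL J s) : 0 < pos J s T := by
  rw [mem_LL] at hT
  unfold pos
  split_ifs with h
  · rw [Nat.pos_iff_ne_zero]
    intro h0
    exact hT.2.2 (Submodule.finrank_eq_zero.1 h0)
  · omega

/-- comparable elements are ordered by position -/
theorem lt_of_pos_lt {J T T' : Submodule F E} {s : ℕ} (hn : s + finrank F J < finrank F E)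
    (hT : T ∈ LL J s) (hT' : T' ∈ LL J s) (hc : T ≤ T' ∨ T' ≤ T)
    (h : pos J s T < pos J s T') : T < T' := by
  rcases hc with hc | hc
  · exact lt_of_le_of_ne hc (fun e => by rw [e] at h; exact lt_irrefl _ h)
  · exfalso
    rcases eq_or_lt_of_le hc with e | e
    · rw [e] at h; exact lt_irrefl _ h
    · exact absurd (pos_lt_pos hn hT' hT e) (by omega)

end family

end P067Y
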