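import Vale.Agent.P067Y.XModel
import Vale.Agent.P067X.Exp
import Vale.Agent.P067X.LinkFill

/-!
# P067: the link of a nonempty face of a complex `GoodC` (for the modules XCE and XCONN)
-/

namespace P067Y

open Classical Finset Module Vale.Agent.P067A P067X

theorem link_model {p r n : ℕ} [Fact p.Prime] {V : Type} [Fintype V] {T : Finset (Finset V)}
    {ty : V → ℕ} {G : Type} [Group G] [MulAction G V] (h : GoodC p r n T ty G) {s : Finset V}
    (hs : s ∈ KT T) {v : V} (hv : v ∈ s) :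
    ∃ (E : Type) (_ : AddCommGroup E) (_ : Module (ZMod p) E) (_ : FiniteDimensional (ZMod p) E)
      (J : Submodule (ZMod p) E) (φ : Submodule (ZMod p) E → V)
      (c : Finset (Submodule (ZMod p) E)),
      finrank (ZMod p) E = n ∧ finrank (ZMod p) J = ty v ∧ ty v ≤ r ∧
      c ∈ OC (LL J (r - ty v)) ∧ c.image φ = s.erase v ∧
      CxIso (Lk (OC (LL J (r - ty v))) c) (Lk (KT T) s) φ ∧
      ∀ T ∈ LL J (r - ty v), ty (φ T) ≤ r ∧ ty (φ T) ≠ ty v ∧
        cpos r (ty v) (ty (φ T)) = pos J (r - ty v) T := by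
  have hcx : IsCx (KT T) := isCx_KT T h.ne
  have hv' : {v} ∈ KT T := hcx.2 s hs _ (by simpa using hv)
  obtain ⟨E, i1, i2, i3, J, φ, h1, h2, h3, h4, h5⟩ := h.model v hv'
  have hsv : ({v} : Finset V) ∪ s.erase v = s := by
    rw [← insert_eq, insert_erase hv]
  have hmem : s.erase v ∈ Lk (KT T) {v} := by
    refine ⟨by simp, ?_⟩
    rw [hsv]; exact hs
  obtain ⟨c, hc, hcs⟩ := h4.surj _ hmem
  refine ⟨E, i1, i2, i3, J, φ, c, h1, h2, h3, hc, hcs.symm, ?_, h5⟩
  have h6 := h4.link (isCx_OC _) hc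
  rw [← hcs, Lk_Lk _ _ _ (by simp), hsv] at h6
  exact h6

/-- the conditions of `fill_link` in terms of the position -/
theorem cond_of_pos {p : ℕ} [Fact p.Prime] {E : Type} [AddCommGroup E] [Module (ZMod p) E]
    [FiniteDimensional (ZMod p) E] {J : Submodule (ZMod p) E} {s k : ℕ}
    (hn : s + finrank (ZMod p) J < finrank (ZMod p) E) {T : Submodule (ZMod p) E}
    (hT : T ∈ LL J s) (hp : 2 * k + 2 ≤ pos J s T) :
    (finrank (ZMod p) T ≤ s → 2 * k + 2 ≤ finrank (ZMod p) T) ∧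
      (s < finrank (ZMod p) T → 2 * k + 1 ≤ s + finrank (ZMod p) (T ⊓ J : Submodule _ _)) := by
  rw [mem_LL] at hT
  rcases hT.1 with ⟨h1, h2⟩ | h1
  · rw [pos_of_first h1 h2] at hp
    exact ⟨fun _ => hp, fun h => by omega⟩
  · rw [pos_of_second hn h1] at hp
    have := finrank_second h1
    exact ⟨fun h => by omega, fun h => by omega⟩

theorem card_image_ty {p r n : ℕ} [Fact p.Prime] {V : Type} [Fintype V] {T : Finset (Finset V)}
    {ty : V → ℕ} {G : Type} [Group G] [MulAction G V] (h : GoodC p r n T ty G) {s : Finset V}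
    (hs : s ∈ KT T) : s.image ty ⊆ range (r + 1) ∧ (s.image ty).card = s.card := by
  obtain ⟨t, ht, hst⟩ := hs
  refine ⟨?_, ?_⟩
  · rw [← h.typed.img t ht]
    exact image_subset_image hst
  · exact card_image_of_injOn ((h.typed.inj t ht).mono (by exact_mod_cast hst))

theorem lk_eq_empty {V : Type} [Fintype V] {T : Finset (Finset V)} {s : Finset V}
    (hs : s ∉ KT T) : lk T s = ∅ := by
  unfold lk
  rw [image_eq_empty, filter_eq_empty_iff]
  intro t ht hst
  exact hs ⟨t, ht, hst⟩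

theorem CE_empty {V : Type} [Fintype V] (m : ℕ) (β : ℝ) :
    CE (∅ : Finset (Finset V)) m β := by
  intro f
  refine ⟨fun _ => 0, ?_⟩
  simp [nrm, Wt]

theorem CE_mono {V : Type} [Fintype V] {T : Finset (Finset V)} {m : ℕ} {β β' : ℝ}
    (hβ : β ≤ β') (h : CE T m β') : CE T m β := by
  intro f
  obtain ⟨g, hg⟩ := h f
  exact ⟨g, le_trans (mul_le_mul_of_nonneg_right hβ (Nat.cast_nonneg _)) hg⟩

theorem Conn_empty {V : Type} [Fintype V] : Conn (∅ : Finset (Finset V)) := by
  intro f _ x y hx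
  simp [Wt] at hx

end P067Y
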