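import Vale.Agent.P067Y.XModel

/-!
# P067, module XNUMQ: bounded degree
-/

namespace P067Y

open Classical Finset Module Vale.Agent.P067A P067X

theorem good_Q_proved (p n : ℕ) [Fact p.Prime] : ∃ Q : ℕ, 0 < Q ∧
    ∀ (r : ℕ) (V : Type) [Fintype V] (T : Finset (Finset V)) (ty : V → ℕ) (G : Type) [Group G]
      [MulAction G V], GoodC p r n T ty G → ∀ s : Finset V, s.Nonempty → Wt T s ≤ Q := by
  have hfin : Finite (Finset (Submodule (ZMod p) (Fin n → ZMod p))) := inferInstance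
  refine ⟨Nat.card (Finset (Submodule (ZMod p) (Fin n → ZMod p))), Nat.card_pos, ?_⟩
  intro r V _ T ty G _ _ hG s hs
  obtain ⟨v, hv⟩ := hs
  by_cases h0 : Wt T s = 0
  · rw [h0]; exact Nat.zero_le _
  have hle : Wt T s ≤ Wt T {v} := Wt_mono (by simpa using hv)
  have hvK : {v} ∈ KT T := by
    rw [mem_KT_iff]
    omega
  refine hle.trans ?_
  obtain ⟨E, _, _, _, J, φ, hE, -, -, hiso, -⟩ := hG.model v hvK
  have e : E ≃ₗ[ZMod p] (Fin n → ZMod p) := LinearEquiv.ofFinrankEq _ _ (by simp [hE])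
  have e2 : Submodule (ZMod p) E ≃ Submodule (ZMod p) (Fin n → ZMod p) :=
    (Submodule.orderIsoMapComap e).toEquiv
  have e3 : Finset (Submodule (ZMod p) E) ≃ Finset (Submodule (ZMod p) (Fin n → ZMod p)) :=
    Equiv.finsetCongr e2
  rw [← Nat.card_congr e3]
  have hfin2 : Finite (Finset (Submodule (ZMod p) E)) := Finite.of_equiv _ e3.symm
  have key : ∀ t : Finset V, ∃ σ : Finset (Submodule (ZMod p) E),
      t ∈ T → v ∈ t → t \ {v} = σ.image φ := by
    intro t
    by_cases ht : t ∈ T ∧ v ∈ t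
    · have hmem : t \ {v} ∈ Lk (KT T) {v} := by
        refine ⟨Finset.disjoint_sdiff, t, ht.1, ?_⟩
        rw [Finset.union_sdiff_of_subset (by simpa using ht.2)]
      obtain ⟨σ, -, h2⟩ := hiso.surj _ hmem
      exact ⟨σ, fun _ _ => h2⟩
    · exact ⟨∅, fun h1 h2 => absurd ⟨h1, h2⟩ ht⟩
  choose F hF using key
  unfold Wt
  haveI := Fintype.ofFinite (Finset (Submodule (ZMod p) E))
  rw [Nat.card_eq_fintype_card]
  refine Finset.card_le_card_of_injOn F (fun _ _ => Finset.mem_univ _) ?_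
  intro t ht t' ht' htt
  simp only [coe_filter, Set.mem_ofPred_eq, singleton_subset_iff] at ht ht'
  have h1 := hF t ht.1 ht.2
  have h2 := hF t' ht'.1 ht'.2
  rw [htt, ← h2] at h1
  have h3 : {v} ∪ t \ {v} = t := Finset.union_sdiff_of_subset (by simpa using ht.2)
  have h4 : {v} ∪ t' \ {v} = t' := Finset.union_sdiff_of_subset (by simpa using ht'.2)
  rw [← h3, ← h4, h1]

end P067Y
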